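import Vale.Agent.P034.Basic

/-!
The additive form of the recursion: each level of the tower costs a fixed additive amount in the
ratio, instead of a fixed multiplicative factor.
-/

namespace Vale.Agent.P034

open Finset

set_option linter.unusedSectionVars false

variable {α : Type*} [Fintype α] [DecidableEq α]

/-- The derived weight at level `a`, without any normalising factor. -/
noncomputable def der1 (g : Finset α → ℝ) (a : ℝ) (R : Finset α) : ℝ :=
  ∑ S ∈ Finset.univ.filter (fun S : Finset α => S ≠ ∅ ∧ R ⊆ S), g S * a ^ (S.card - R.card)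

lemma der_eq_four_mul (g : Finset α → ℝ) (a : ℝ) (R : Finset α) :
    der g a R = 4 * der1 g a R := rfl

lemma der1_nonneg {g : Finset α → ℝ} (hg : ∀ S, 0 ≤ g S) {a : ℝ} (ha : 0 ≤ a) (R : Finset α) :
    0 ≤ der1 g a R :=
  Finset.sum_nonneg fun S _ => mul_nonneg (hg S) (pow_nonneg ha _)

lemma sub_der_eq (g : Finset α → ℝ) (a : ℝ) (V : Finset α) :
    sub (der g a) V = 4 * sub (der1 g a) V := by
  unfold sub
  rw [Finset.mul_sum]
  rfl

lemma mass_der_eq_four (g : Finset α → ℝ) (a x : ℝ) :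
    mass (der g a) x = 4 * mass (der1 g a) x := by
  unfold mass
  rw [Finset.mul_sum]
  apply Finset.sum_congr rfl
  intro S _
  rw [der_eq_four_mul]
  ring

/-- The potential of `V` at level `a`. -/
noncomputable def pot (g : Finset α → ℝ) (a : ℝ) (V : Finset α) : ℝ :=
  ∑ S ∈ Finset.univ.filter (fun S : Finset α => S ≠ ∅), g S * a ^ (S \ V).card

lemma pot_le_sub_der1 {g : Finset α → ℝ} (hg : ∀ S, 0 ≤ g S) {a : ℝ} (ha : 0 ≤ a) (V : Finset α) :
    pot g a V ≤ sub (der1 g a) V := by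
  have h := sub_der_ge hg ha V
  rw [sub_der_eq] at h
  unfold pot
  linarith

lemma mass_der1_eq (g : Finset α → ℝ) (a x : ℝ) :
    mass (der1 g a) x
      = ∑ S ∈ Finset.univ.filter (fun S : Finset α => S ≠ ∅), g S * (x + a) ^ S.card := by
  have h := mass_der_eq g a x
  rw [mass_der_eq_four] at h
  linarith

lemma mass_eq_filter {g : Finset α → ℝ} (h0 : g ∅ = 0) (y : ℝ) :
    ∑ S ∈ Finset.univ.filter (fun S : Finset α => S ≠ ∅), g S * y ^ S.card = mass g y := by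
  unfold mass
  rw [Finset.sum_filter]
  apply Finset.sum_congr rfl
  intro S _
  by_cases hS : S = ∅
  · simp [hS, h0]
  · simp [hS]

lemma mass_mono {g : Finset α → ℝ} (hg : ∀ S, 0 ≤ g S) {x y : ℝ} (hx : 0 ≤ x) (hxy : x ≤ y) :
    mass g x ≤ mass g y :=
  Finset.sum_le_sum fun S _ =>
    mul_le_mul_of_nonneg_left (pow_le_pow_left₀ hx hxy _) (hg S)

lemma der1_empty {g : Finset α → ℝ} (h0 : g ∅ = 0) (a : ℝ) : der1 g a ∅ = mass g a := by
  rw [← mass_eq_filter h0 a]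
  unfold der1
  apply Finset.sum_congr
  · ext S; simp
  · intro S _
    simp

/-- The potential splits into the internal weight and the outside part. -/
lemma pot_split {g : Finset α → ℝ} (h0 : g ∅ = 0) (a : ℝ) (V : Finset α) :
    pot g a V = sub g V
      + ∑ S ∈ Finset.univ.filter (fun S : Finset α => ¬ S ⊆ V), g S * a ^ (S \ V).card := by
  unfold pot sub
  have h1 : ∑ S ∈ Finset.univ.filter (fun S : Finset α => S ≠ ∅), g S * a ^ (S \ V).card
      = ∑ S : Finset α, g S * a ^ (S \ V).card := by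
    rw [Finset.sum_filter]
    apply Finset.sum_congr rfl
    intro S _
    by_cases hS : S = ∅
    · simp [hS, h0]
    · simp [hS]
  rw [h1]
  have h2 : ∑ S ∈ V.powerset, g S
      = ∑ S ∈ Finset.univ.filter (fun S : Finset α => S ⊆ V), g S * a ^ (S \ V).card := by
    rw [powerset_eq_filter]
    apply Finset.sum_congr rfl
    intro S hS
    rw [Finset.sdiff_eq_empty_iff_subset.mpr (Finset.mem_powerset.mp hS)]
    simp
  rw [h2, Finset.sum_filter_add_sum_filter_not]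

lemma sub_le_pot {g : Finset α → ℝ} (hg : ∀ S, 0 ≤ g S) (h0 : g ∅ = 0) {a : ℝ} (ha : 0 ≤ a)
    (V : Finset α) : sub g V ≤ pot g a V := by
  rw [pot_split h0]
  have : 0 ≤ ∑ S ∈ Finset.univ.filter (fun S : Finset α => ¬ S ⊆ V), g S * a ^ (S \ V).card :=
    Finset.sum_nonneg fun S _ => mul_nonneg (hg S) (pow_nonneg ha _)
  linarith

/-- The leaf of the path tree with threshold `τ`. -/
lemma tree_leaf' {g : Finset α → ℝ} {a τ : ℝ} (l₁ : ℕ) (V : Finset α) (hV : l₁ ≤ V.card) :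
    ∃ h : Finset α → ℝ, (∀ W, 0 ≤ h W) ∧ (∀ W, h W ≠ 0 → V ⊆ W ∧ l₁ ≤ W.card) ∧
      (∑ W, h W * a ^ (W \ V).card ≤ 1) ∧
      (∀ T, V ⊆ T → τ ≤ sub g T →
        (∀ V' ⊆ T, V'.card ≤ l₁ → sub (der1 g a) V' < τ) → 1 ≤ ∑ W ∈ T.powerset, h W) := by
  refine ⟨fun W => if W = V then 1 else 0, ?_, ?_, ?_, ?_⟩
  · intro W; dsimp only; split_ifs <;> norm_num
  · intro W hW
    dsimp only at hW
    split_ifs at hW with hWV
    · rw [hWV]; exact ⟨Finset.Subset.refl _, hV⟩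
    · exact absurd rfl hW
  · rw [Finset.sum_eq_single V]
    · simp
    · intro W _ hW; simp [hW]
    · intro h; exact absurd (Finset.mem_univ V) h
  · intro T hT _ _
    rw [Finset.sum_eq_single V]
    · simp
    · intro W _ hW; simp [hW]
    · intro h; exact absurd (Finset.mem_powerset.mpr hT) h

/-- The path tree with exact normalisation at each node. -/
lemma tree_exists' {g : Finset α → ℝ} (hg : ∀ S, 0 ≤ g S) (h0 : g ∅ = 0) {a τ : ℝ} (ha : 0 ≤ a)
    (l₁ : ℕ) :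
    ∀ (n : ℕ) (V : Finset α), l₁ ≤ V.card + n →
      ∃ h : Finset α → ℝ, (∀ W, 0 ≤ h W) ∧ (∀ W, h W ≠ 0 → V ⊆ W ∧ l₁ ≤ W.card) ∧
        (∑ W, h W * a ^ (W \ V).card ≤ 1) ∧
        (∀ T, V ⊆ T → τ ≤ sub g T →
          (∀ V' ⊆ T, V'.card ≤ l₁ → sub (der1 g a) V' < τ) → 1 ≤ ∑ W ∈ T.powerset, h W) := by
  intro n
  induction n with
  | zero =>
    intro V hV
    exact tree_leaf' l₁ V (by omega)
  | succ n ih =>
    intro V hV
    by_cases hlarge : l₁ ≤ V.card
    · exact tree_leaf' l₁ V hlarge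
    by_cases hlight : sub (der1 g a) V < τ
    swap
    · refine ⟨fun _ => 0, fun _ => le_rfl, fun W hW => absurd rfl hW, by simp, ?_⟩
      intro T hT _ hall
      exact absurd (hall V hT (by omega)) hlight
    -- the internal node
    have hpotlt : pot g a V < τ := lt_of_le_of_lt (pot_le_sub_der1 hg ha V) hlight
    have hd : 0 < τ - sub g V := by
      have := sub_le_pot hg h0 ha V
      linarith
    set d : ℝ := τ - sub g V with hddef
    have key : ∀ S : Finset α, ∃ h : Finset α → ℝ, ¬ S ⊆ V →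
        (∀ W, 0 ≤ h W) ∧ (∀ W, h W ≠ 0 → V ∪ S ⊆ W ∧ l₁ ≤ W.card) ∧
        (∑ W, h W * a ^ (W \ (V ∪ S)).card ≤ 1) ∧
        (∀ T, V ∪ S ⊆ T → τ ≤ sub g T →
          (∀ V' ⊆ T, V'.card ≤ l₁ → sub (der1 g a) V' < τ) → 1 ≤ ∑ W ∈ T.powerset, h W) := by
      intro S
      by_cases hS : S ⊆ V
      · exact ⟨fun _ => 0, fun h => absurd hS h⟩
      · have hlt : V.card < (V ∪ S).card := by
          apply Finset.card_lt_card
          refine ⟨Finset.subset_union_left, ?_⟩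
          intro hsub
          exact hS (Finset.union_subset_right hsub)
        obtain ⟨h, h1⟩ := ih (V ∪ S) (by omega)
        exact ⟨h, fun _ => h1⟩
    choose hS hprops using key
    set D := Finset.univ.filter (fun S : Finset α => ¬ S ⊆ V) with hD
    have hDmem : ∀ S ∈ D, ¬ S ⊆ V := fun S hS' => (Finset.mem_filter.mp hS').2
    have hc0 : ∀ S, 0 ≤ g S / d := fun S => div_nonneg (hg S) hd.le
    refine ⟨fun W => ∑ S ∈ D, g S / d * hS S W, ?_, ?_, ?_, ?_⟩
    · intro W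
      exact Finset.sum_nonneg fun S hS' =>
        mul_nonneg (hc0 S) ((hprops S (hDmem S hS')).1 W)
    · intro W hW
      obtain ⟨S, hS', hne⟩ := Finset.exists_ne_zero_of_sum_ne_zero hW
      have hne2 : hS S W ≠ 0 := by
        intro h0'; apply hne; rw [h0', mul_zero]
      obtain ⟨h1, h2⟩ := (hprops S (hDmem S hS')).2.1 W hne2
      exact ⟨(Finset.union_subset_left h1), h2⟩
    · -- the cost
      have hstep : ∀ S ∈ D, ∑ W, hS S W * a ^ (W \ V).card ≤ a ^ (S \ V).card := by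
        intro S hS'
        obtain ⟨_, hsupp, hcost, _⟩ := hprops S (hDmem S hS')
        have heq : ∑ W, hS S W * a ^ (W \ V).card
            = a ^ (S \ V).card * ∑ W, hS S W * a ^ (W \ (V ∪ S)).card := by
          rw [Finset.mul_sum]
          apply Finset.sum_congr rfl
          intro W _
          by_cases h0' : hS S W = 0
          · simp [h0']
          · rw [card_sdiff_split (hsupp W h0').1, pow_add]; ring
        rw [heq]
        calc _ ≤ a ^ (S \ V).card * 1 :=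
              mul_le_mul_of_nonneg_left hcost (pow_nonneg ha _)
          _ = _ := mul_one _
      have hout : ∑ S ∈ D, g S * a ^ (S \ V).card ≤ d := by
        have hp := pot_split h0 a V
        rw [hddef]
        rw [← hD] at hp
        linarith
      calc ∑ W, (∑ S ∈ D, g S / d * hS S W) * a ^ (W \ V).card
          = ∑ S ∈ D, g S / d * ∑ W, hS S W * a ^ (W \ V).card := by
            simp_rw [Finset.sum_mul]
            rw [Finset.sum_comm]
            apply Finset.sum_congr rfl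
            intro S _
            rw [Finset.mul_sum]
            apply Finset.sum_congr rfl
            intro W _
            ring
        _ ≤ ∑ S ∈ D, g S / d * a ^ (S \ V).card := by
            apply Finset.sum_le_sum
            intro S hS'
            exact mul_le_mul_of_nonneg_left (hstep S hS') (hc0 S)
        _ = (∑ S ∈ D, g S * a ^ (S \ V).card) / d := by
            rw [Finset.sum_div]
            apply Finset.sum_congr rfl
            intro S _
            ring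
        _ ≤ 1 := by
            rw [div_le_one hd]
            exact hout
    · -- the lower bound
      intro T hVT hT hall
      have hinner : ∀ S ∈ D, g S / d * (if S ⊆ T then 1 else 0)
          ≤ g S / d * ∑ W ∈ T.powerset, hS S W := by
        intro S hS'
        apply mul_le_mul_of_nonneg_left _ (hc0 S)
        obtain ⟨hnn, _, _, hlow⟩ := hprops S (hDmem S hS')
        split_ifs with hST
        · exact hlow T (Finset.union_subset hVT hST) hT hall
        · exact Finset.sum_nonneg fun W _ => hnn W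
      have hsum1 : ∑ W ∈ T.powerset, ∑ S ∈ D, g S / d * hS S W
          = ∑ S ∈ D, g S / d * ∑ W ∈ T.powerset, hS S W := by
        rw [Finset.sum_comm]
        apply Finset.sum_congr rfl
        intro S _
        rw [Finset.mul_sum]
      rw [hsum1]
      refine le_trans ?_ (Finset.sum_le_sum hinner)
      have hsum2 : ∑ S ∈ D, g S / d * (if S ⊆ T then (1 : ℝ) else 0)
          = (sub g T - sub g V) / d := by
        have hsd : sub g T - sub g V = ∑ S ∈ T.powerset \ V.powerset, g S := by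
          unfold sub
          rw [← Finset.sum_sdiff (Finset.powerset_mono.mpr hVT)]
          ring
        rw [hsd, Finset.sum_div]
        have hset : T.powerset \ V.powerset = D.filter (fun S => S ⊆ T) := by
          ext S
          simp only [Finset.mem_sdiff, Finset.mem_powerset, Finset.mem_filter, hD,
            Finset.mem_univ, true_and]
          tauto
        have hfilt : ∑ i ∈ D.filter (fun S => S ⊆ T), g i / d
            = ∑ i ∈ D, if i ⊆ T then g i / d else 0 := Finset.sum_filter _ _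
        rw [hset, hfilt]
        apply Finset.sum_congr rfl
        intro S _
        split_ifs <;> ring
      rw [hsum2, le_div_iff₀ hd, one_mul, hddef]
      linarith

/-- The final form of the tree: cost at `p` at most `(1/2)^l₁`. -/
lemma tree_final' {g : Finset α → ℝ} (hg : ∀ S, 0 ≤ g S) (h0 : g ∅ = 0) {p τ : ℝ} (hp : 0 ≤ p)
    (l₁ : ℕ) :
    ∃ h : Finset α → ℝ, (∀ W, 0 ≤ h W) ∧ (∑ W, h W * p ^ W.card ≤ (1 / 2) ^ l₁) ∧
      (∀ T, τ ≤ sub g T →
        (∀ V' ⊆ T, V'.card ≤ l₁ → sub (der1 g (2 * p)) V' < τ) → 1 ≤ ∑ W ∈ T.powerset, h W) := by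
  obtain ⟨h, hnn, hsupp, hcost, hlow⟩ :=
    tree_exists' hg h0 (a := 2 * p) (τ := τ) (by positivity) l₁ l₁ ∅ (by omega)
  refine ⟨h, hnn, ?_, fun T hT hall => hlow T (Finset.empty_subset _) hT hall⟩
  have hterm : ∀ W, h W * p ^ W.card ≤ (1 / 2) ^ l₁ * (h W * (2 * p) ^ (W \ ∅).card) := by
    intro W
    by_cases h0' : h W = 0
    · simp [h0']
    · have hl : l₁ ≤ W.card := (hsupp W h0').2
      have h1 : p ^ W.card = (1 / 2) ^ W.card * (2 * p) ^ W.card := by
        rw [← mul_pow]; congr 1; ring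
      have h2 : ((1 : ℝ) / 2) ^ W.card ≤ (1 / 2) ^ l₁ :=
        pow_le_pow_of_le_one (by norm_num) (by norm_num) hl
      rw [Finset.sdiff_empty, h1]
      have h3 : 0 ≤ h W * (2 * p) ^ W.card := mul_nonneg (hnn W) (by positivity)
      calc h W * ((1 / 2) ^ W.card * (2 * p) ^ W.card)
          = (1 / 2) ^ W.card * (h W * (2 * p) ^ W.card) := by ring
        _ ≤ _ := mul_le_mul_of_nonneg_right h2 h3
  calc ∑ W, h W * p ^ W.card ≤ ∑ W, (1 / 2) ^ l₁ * (h W * (2 * p) ^ (W \ ∅).card) :=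
        Finset.sum_le_sum fun W _ => hterm W
    _ = (1 / 2) ^ l₁ * ∑ W, h W * (2 * p) ^ (W \ ∅).card := by rw [Finset.mul_sum]
    _ ≤ (1 / 2) ^ l₁ * 1 := mul_le_mul_of_nonneg_left hcost (by positivity)
    _ = _ := mul_one _

/-- The recursion statement with explicit mass and cost bounds. -/
def GoodA (α : Type*) [Fintype α] [DecidableEq α] (l : ℕ) (L μ δ : ℝ) : Prop :=
  ∀ (g : Finset α → ℝ) (q : ℝ), (∀ S, 0 ≤ g S) → g ∅ = 0 → 0 ≤ q → mass g q ≤ μ →
    ∃ G : Finset (Finset α), cost G (q / L) ≤ δ ∧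
      ∀ V : Finset α, V.card ≤ l → 1 ≤ sub g V → ∃ U ∈ G, U ⊆ V

/-- The number of peeled sets, weighted at `p`. -/
lemma cost_peeled_le {g : Finset α → ℝ} (hg : ∀ S, 0 ≤ g S) {p : ℝ} (hp : 0 ≤ p) (l : ℕ)
    (𝓣 : Finset (Finset α)) (hcard : ∀ T ∈ 𝓣, T.card ≤ l)
    (hshare : ∀ T ∈ 𝓣, ∀ y ∈ T, 1 / ((l : ℝ) + 1) / ((l : ℝ) + 1) ≤ sub g T - sub g (T.erase y))
    (hder : ∀ T ∈ 𝓣, ∀ R, R ⊆ T → der1 g (2 * p) R < (l : ℝ) + 1) :
    cost 𝓣 p ≤ 2 ^ ((5 * l + 1) * (l + 1)) := by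
  have hl1 : (0 : ℝ) < (l : ℝ) + 1 := by positivity
  obtain ⟨B, hB⟩ : ∃ B : ℝ, B = (l : ℝ) + 1 := ⟨_, rfl⟩
  rw [← hB] at hl1 hshare hder
  obtain ⟨η, hη⟩ : ∃ η : ℝ, η = 1 / B / B := ⟨_, rfl⟩
  rw [← hη] at hshare
  have hη0 : 0 < η := by rw [hη]; positivity
  obtain ⟨w, hw⟩ : ∃ w : ℝ, w = η / 2 ^ l := ⟨_, rfl⟩
  have hw0 : 0 < w := by rw [hw]; positivity
  have hηw : η = w * 2 ^ l := by rw [hw]; field_simp
  have ha0 : 0 ≤ 2 * p := by positivity
  have hw1 : 0 < w / B := by positivity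
  have hcnt := count_aux (g := fun S => g S / B) (fun S => div_nonneg (hg S) hl1.le) hp hw1 l 𝓣
    hcard
    (fun T hT y hy => by
      obtain ⟨S, hST, hyS, hwS⟩ := exists_large hηw hη0 (hcard T hT) hy (hshare T hT y hy)
      exact ⟨S, hST, hyS, div_le_div_of_nonneg_right hwS hl1.le⟩)
    (by
      intro T hT V hVT
      have h1 := pot_le_sub_der1 hg ha0 V
      have h2 : sub (der1 g (2 * p)) V ≤ ∑ R ∈ V.powerset, B := by
        apply Finset.sum_le_sum
        intro R hR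
        exact (hder T hT R ((Finset.mem_powerset.mp hR).trans hVT)).le
      rw [Finset.sum_const, Finset.card_powerset, nsmul_eq_mul] at h2
      have h3 : ((2 ^ V.card : ℕ) : ℝ) ≤ 2 ^ l := by
        have : 2 ^ V.card ≤ 2 ^ l := Nat.pow_le_pow_right (by norm_num)
          ((Finset.card_le_card hVT).trans (hcard T hT))
        exact_mod_cast this
      have h4 : ∑ S ∈ Finset.univ.filter (fun S : Finset α => S ≠ ∅),
          g S / B * (2 * p) ^ (S \ V).card = pot g (2 * p) V / B := by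
        unfold pot
        rw [Finset.sum_div]
        apply Finset.sum_congr rfl
        intro S _
        ring
      rw [h4, div_le_iff₀ hl1]
      have h5 : ((2 ^ V.card : ℕ) : ℝ) * B ≤ 2 ^ l * B :=
        mul_le_mul_of_nonneg_right h3 hl1.le
      linarith)
    (l + 1) ∅ (by simp)
  have hfilter : 𝓣.filter (fun T => ∅ ⊆ T) = 𝓣 :=
    Finset.filter_true_of_mem fun T _ => Finset.empty_subset _
  rw [hfilter] at hcnt
  simp only [Finset.sdiff_empty] at hcnt
  unfold cost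
  refine hcnt.trans ?_
  rw [pow_mul]
  apply pow_le_pow_left₀ (by positivity)
  have h1 : (2 : ℝ) ^ l / (w / B) = 2 ^ l * 2 ^ l * (B * B * B) := by
    rw [hw, hη]; field_simp
  have h2 : B ≤ 2 ^ l := by
    have : l + 1 ≤ 2 ^ l := Nat.lt_two_pow_self
    rw [hB]
    exact_mod_cast this
  have h3 : (1 : ℝ) ≤ 2 ^ l := one_le_pow₀ (by norm_num)
  have h5 : (0 : ℝ) < 2 ^ l := by positivity
  obtain ⟨X, hX⟩ : ∃ X : ℝ, X = 2 ^ l := ⟨_, rfl⟩
  have h4 : (2 : ℝ) ^ (5 * l + 1) = 2 * (X * X * (X * X * X)) := by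
    rw [pow_succ, hX, pow_mul']; ring
  rw [h1, h4, ← hX]
  rw [← hX] at h2 h3 h5
  have h6 : B * B * B ≤ X * X * X := by
    have h7 : B * B ≤ X * X := mul_le_mul h2 h2 hl1.le h5.le
    exact mul_le_mul h7 h2 hl1.le (by positivity)
  have h8 : X * X * (B * B * B) ≤ X * X * (X * X * X) :=
    mul_le_mul_of_nonneg_left h6 (by positivity)
  have h9 : (1 : ℝ) ≤ X * X * (X * X * X) := by
    have h10 : (1 : ℝ) ≤ X * X := by nlinarith
    have h11 : (1 : ℝ) ≤ X * X * X := by nlinarith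
    nlinarith
  linarith

/-- The rounding of the tree inside the peeled sets. -/
lemma round_peeled {g : Finset α → ℝ} (hg : ∀ S, 0 ≤ g S) (h0 : g ∅ = 0) {p τ : ℝ} (hp : 0 ≤ p)
    (l l₁ : ℕ) (hΛ : (l + 1) * ((5 * l + 1) * (l + 1) + l) ≤ 2 ^ l₁)
    (𝓣 : Finset (Finset α)) (hcount : cost 𝓣 p ≤ 2 ^ ((5 * l + 1) * (l + 1)))
    (hτ : ∀ T ∈ 𝓣, τ ≤ sub g T)
    (hlight : ∀ T ∈ 𝓣, ∀ V', V' ⊆ T → V'.card ≤ l₁ → sub (der1 g (2 * p)) V' < τ) :
    ∃ R : Finset (Finset α), cost R p + cost (𝓣.filter (fun T => ∀ r ∈ R, ¬ r ⊆ T)) p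
      ≤ 2 * (1 / ((l : ℝ) + 1)) := by
  have hl1 : (0 : ℝ) < (l : ℝ) + 1 := by positivity
  obtain ⟨hh, hhnn, hhcost, hhlow⟩ := tree_final' (τ := τ) hg h0 hp l₁
  obtain ⟨Λ, hΛdef⟩ : ∃ Λ : ℕ, Λ = (5 * l + 1) * (l + 1) + l := ⟨_, rfl⟩
  obtain ⟨R, hRcost⟩ := round_apply 𝓣 hh hhnn hp Λ (fun T hT =>
    hhlow T (hτ T hT) (hlight T hT))
  refine ⟨R, hRcost.trans ?_⟩
  have h1 : (Λ : ℝ) * ∑ W, hh W * p ^ W.card ≤ 1 / ((l : ℝ) + 1) := by
    have h2 : (Λ : ℝ) * ∑ W, hh W * p ^ W.card ≤ (Λ : ℝ) * (1 / 2) ^ l₁ :=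
      mul_le_mul_of_nonneg_left hhcost (Nat.cast_nonneg _)
    have h3 : ((l : ℝ) + 1) * (Λ : ℝ) ≤ 2 ^ l₁ := by
      rw [hΛdef]
      exact_mod_cast hΛ
    have h4 : (Λ : ℝ) * (1 / 2) ^ l₁ ≤ 1 / ((l : ℝ) + 1) := by
      rw [one_div, inv_pow, ← div_eq_mul_inv, div_le_div_iff₀ (by positivity) hl1]
      linarith
    linarith
  have h5 : (1 / 2 : ℝ) ^ Λ * cost 𝓣 p ≤ 1 / ((l : ℝ) + 1) := by
    have h6 : (1 / 2 : ℝ) ^ Λ * cost 𝓣 p ≤ (1 / 2) ^ Λ * 2 ^ ((5 * l + 1) * (l + 1)) :=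
      mul_le_mul_of_nonneg_left hcount (by positivity)
    have h7 : (1 / 2 : ℝ) ^ Λ * 2 ^ ((5 * l + 1) * (l + 1)) = (1 / 2) ^ l := by
      rw [hΛdef, pow_add]
      have h8 : (1 / 2 : ℝ) ^ ((5 * l + 1) * (l + 1)) * 2 ^ ((5 * l + 1) * (l + 1)) = 1 := by
        rw [← mul_pow]; norm_num
      calc _ = ((1 / 2 : ℝ) ^ ((5 * l + 1) * (l + 1)) * 2 ^ ((5 * l + 1) * (l + 1)))
            * (1 / 2) ^ l := by ring
        _ = (1 / 2) ^ l := by rw [h8, one_mul]
    have h9 : (1 / 2 : ℝ) ^ l ≤ 1 / ((l : ℝ) + 1) := by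
      rw [one_div, inv_pow, one_div]
      apply inv_anti₀ hl1
      have : l + 1 ≤ 2 ^ l := Nat.lt_two_pow_self
      exact_mod_cast this
    linarith
  linarith

/-- The cost of the sets of large derived weight. -/
lemma cost_large_der_le {g : Finset α → ℝ} (hg : ∀ S, 0 ≤ g S) (h0 : g ∅ = 0) {p q B : ℝ}
    (hp : 0 ≤ p) (hB : 0 < B) (h3p : 3 * p ≤ q) (hm1 : mass g q ≤ 1) :
    cost (Finset.univ.filter (fun R : Finset α => B ≤ der1 g (2 * p) R)) p ≤ 1 / B := by
  have ha0 : 0 ≤ 2 * p := by positivity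
  have hterm : ∀ R ∈ Finset.univ.filter (fun R : Finset α => B ≤ der1 g (2 * p) R),
      p ^ R.card ≤ (1 / B) * (der1 g (2 * p) R * p ^ R.card) := by
    intro R hR
    have h1 : B ≤ der1 g (2 * p) R := (Finset.mem_filter.mp hR).2
    have h3 : 0 ≤ p ^ R.card := pow_nonneg hp _
    have h4 : 1 ≤ (1 / B) * der1 g (2 * p) R := by
      rw [one_div, ← div_eq_inv_mul, le_div_iff₀ hB]
      linarith
    nlinarith
  unfold cost
  have hB' : 0 ≤ 1 / B := by positivity
  calc _ ≤ ∑ R ∈ Finset.univ.filter (fun R : Finset α => B ≤ der1 g (2 * p) R),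
        (1 / B) * (der1 g (2 * p) R * p ^ R.card) := Finset.sum_le_sum hterm
    _ = (1 / B) * ∑ R ∈ Finset.univ.filter (fun R : Finset α => B ≤ der1 g (2 * p) R),
        der1 g (2 * p) R * p ^ R.card := by rw [Finset.mul_sum]
    _ ≤ (1 / B) * ∑ R : Finset α, der1 g (2 * p) R * p ^ R.card := by
        apply mul_le_mul_of_nonneg_left _ hB'
        exact Finset.sum_le_sum_of_subset_of_nonneg (Finset.filter_subset _ _)
          (fun R _ _ => mul_nonneg (der1_nonneg hg ha0 R) (pow_nonneg hp _))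
    _ ≤ (1 / B) * 1 := by
        apply mul_le_mul_of_nonneg_left _ hB'
        have h5 : ∑ R : Finset α, der1 g (2 * p) R * p ^ R.card = mass g (p + 2 * p) := by
          have := mass_der1_eq g (2 * p) p
          rw [mass_eq_filter h0] at this
          exact this
        rw [h5]
        exact (mass_mono hg (by positivity) (by linarith)).trans hm1
    _ = 1 / B := mul_one _

/-- The next weight of the recursion. -/
noncomputable def nextw (g : Finset α → ℝ) (a d : ℝ) (R : Finset α) : ℝ :=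
  if R = ∅ then 0 else der1 g a R / d

lemma nextw_nonneg {g : Finset α → ℝ} (hg : ∀ S, 0 ≤ g S) {a d : ℝ} (ha : 0 ≤ a) (hd : 0 < d)
    (R : Finset α) : 0 ≤ nextw g a d R := by
  unfold nextw
  split_ifs
  · exact le_rfl
  · exact div_nonneg (der1_nonneg hg ha R) hd.le

lemma mass_nextw {g : Finset α → ℝ} (h0 : g ∅ = 0) (a d x : ℝ) :
    mass (nextw g a d) x = (mass g (x + a) - mass g a) / d := by
  have h2 : mass (der1 g a) x = mass g (x + a) := by
    rw [mass_der1_eq, mass_eq_filter h0]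
  rw [← h2, ← der1_empty h0 a]
  unfold mass
  have hsp := Finset.add_sum_erase (Finset.univ : Finset (Finset α))
    (fun S => der1 g a S * x ^ S.card) (Finset.mem_univ (∅ : Finset α))
  have hsp2 := Finset.add_sum_erase (Finset.univ : Finset (Finset α))
    (fun S => nextw g a d S * x ^ S.card) (Finset.mem_univ (∅ : Finset α))
  simp only [Finset.card_empty, pow_zero, mul_one] at hsp hsp2
  have he : nextw g a d ∅ = 0 := by simp [nextw]
  rw [← hsp, ← hsp2, he, zero_add, add_sub_cancel_left, Finset.sum_div]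
  apply Finset.sum_congr rfl
  intro S hS
  have hS0 : S ≠ ∅ := (Finset.mem_erase.mp hS).1
  unfold nextw
  rw [if_neg hS0]
  ring

lemma sub_nextw {g : Finset α → ℝ} (h0 : g ∅ = 0) {a d τ : ℝ} (hd : 0 < d)
    (hdτ : d = τ - mass g a) {V : Finset α} (hV : τ ≤ sub (der1 g a) V) : 1 ≤ sub (nextw g a d) V := by
  have h1 : sub (der1 g a) V = mass g a + ∑ R ∈ V.powerset.erase ∅, der1 g a R := by
    unfold sub
    rw [← Finset.add_sum_erase _ _ (Finset.empty_mem_powerset V), der1_empty h0]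
  have he : nextw g a d ∅ = 0 := by simp [nextw]
  have h2 : sub (nextw g a d) V = (∑ R ∈ V.powerset.erase ∅, der1 g a R) / d := by
    unfold sub
    rw [← Finset.add_sum_erase _ _ (Finset.empty_mem_powerset V), he, zero_add, Finset.sum_div]
    apply Finset.sum_congr rfl
    intro S hS
    unfold nextw
    rw [if_neg (Finset.mem_erase.mp hS).1]
  rw [h2, le_div_iff₀ hd]
  linarith

/-- One additive step of the recursion. -/
theorem goodA_step {l l₁ : ℕ} {L₁ μ₁ δ₁ : ℝ} (hl : 1 ≤ l) (hL₁ : 1 ≤ L₁)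
    (hμ₁ : μ₁ < 1) (h : GoodA α l₁ L₁ μ₁ δ₁)
    (hΛ : (l + 1) * ((5 * l + 1) * (l + 1) + l) ≤ 2 ^ l₁) :
    GoodA α l (L₁ + 2) (μ₁ * (1 - 1 / ((l : ℝ) + 1))) (δ₁ + 3 * (1 / ((l : ℝ) + 1))) := by
  classical
  intro g q hg h0 hq hm
  have hl1 : (0 : ℝ) < (l : ℝ) + 1 := by positivity
  obtain ⟨κ, hκ⟩ : ∃ κ : ℝ, κ = 1 / ((l : ℝ) + 1) := ⟨_, rfl⟩
  rw [← hκ] at hm ⊢
  have hκ0 : 0 < κ := by rw [hκ]; positivity
  obtain ⟨τ, hτ⟩ : ∃ τ : ℝ, τ = 1 - κ := ⟨_, rfl⟩
  rw [← hτ] at hm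
  have hL₀ : (0 : ℝ) < L₁ := by linarith
  obtain ⟨p, hpdef⟩ : ∃ p : ℝ, p = q / (L₁ + 2) := ⟨_, rfl⟩
  rw [← hpdef]
  have hp : 0 ≤ p := by rw [hpdef]; positivity
  have hqp : q = (L₁ + 2) * p := by
    rw [hpdef]; field_simp
  have ha0 : 0 ≤ 2 * p := by positivity
  have hx0 : 0 ≤ L₁ * p := by positivity
  have hxa : L₁ * p + 2 * p = q := by rw [hqp]; ring
  have hxL : L₁ * p / L₁ = p := by field_simp
  have ham : 2 * p ≤ q := by rw [hqp]; nlinarith
  have hmnn : 0 ≤ mass g q := mass_nonneg hg hq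
  have hA0 : 0 ≤ mass g (2 * p) := mass_nonneg hg ha0
  have hAm : mass g (2 * p) ≤ mass g q := mass_mono hg ha0 ham
  have hτpos : 0 < τ := by
    have hl' : (1 : ℝ) ≤ (l : ℝ) := by exact_mod_cast hl
    have : κ < 1 := by
      rw [hκ, div_lt_one hl1]
      linarith
    rw [hτ]
    linarith
  have hmτ' : mass g q < τ := by nlinarith
  have hAτ : mass g (2 * p) < τ := lt_of_le_of_lt hAm hmτ'
  obtain ⟨d, hd⟩ : ∃ d : ℝ, d = τ - mass g (2 * p) := ⟨_, rfl⟩
  have hdpos : 0 < d := by rw [hd]; linarith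
  -- the mass of the next weight
  have hmass₂ : mass (nextw g (2 * p) d) (L₁ * p) ≤ μ₁ := by
    rw [mass_nextw h0, hxa, hd]
    have h3 : (mass g q - mass g (2 * p)) / (τ - mass g (2 * p)) ≤ mass g q / τ := by
      rw [div_le_div_iff₀ (by linarith) hτpos]
      nlinarith
    have h4 : mass g q / τ ≤ μ₁ := by
      rw [div_le_iff₀ hτpos]
      exact hm
    linarith
  have hg₂0 : nextw g (2 * p) d ∅ = 0 := by simp [nextw]
  obtain ⟨G', hG'cost, hG'cov⟩ := h (nextw g (2 * p) d)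
    (L₁ * p) (nextw_nonneg hg ha0 hdpos) hg₂0 hx0 hmass₂
  rw [hxL] at hG'cost
  -- the family of sets of large derived weight
  have hm1 : mass g q ≤ 1 := by nlinarith
  have h3p : 3 * p ≤ q := by rw [hqp]; nlinarith
  have hGDp := cost_large_der_le hg h0 hp hl1 h3p hm1
  rw [← hκ] at hGDp
  -- the peeled light sets
  obtain ⟨η, hη⟩ : ∃ η : ℝ, η = 1 / ((l : ℝ) + 1) / ((l : ℝ) + 1) := ⟨_, rfl⟩
  have hη0 : 0 < η := by rw [hη]; positivity
  obtain ⟨𝓣, h𝓣⟩ : ∃ 𝓣 : Finset (Finset α), 𝓣 = Finset.univ.filter (fun T : Finset α =>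
    T.card ≤ l ∧ (∀ y ∈ T, η ≤ sub g T - sub g (T.erase y)) ∧
      (∀ R, R ⊆ T → der1 g (2 * p) R < (l : ℝ) + 1) ∧
      τ ≤ sub g T ∧ ∀ V', V' ⊆ T → V'.card ≤ l₁ → sub (der1 g (2 * p)) V' < τ) := ⟨_, rfl⟩
  have hmem𝓣 : ∀ T ∈ 𝓣, T.card ≤ l ∧ (∀ y ∈ T, η ≤ sub g T - sub g (T.erase y)) ∧
      (∀ R, R ⊆ T → der1 g (2 * p) R < (l : ℝ) + 1) ∧ τ ≤ sub g T ∧
      ∀ V', V' ⊆ T → V'.card ≤ l₁ → sub (der1 g (2 * p)) V' < τ := by
    intro T hT
    rw [h𝓣] at hT
    exact (Finset.mem_filter.mp hT).2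
  have hcount : cost 𝓣 p ≤ 2 ^ ((5 * l + 1) * (l + 1)) :=
    cost_peeled_le hg hp l 𝓣 (fun T hT => (hmem𝓣 T hT).1)
      (fun T hT y hy => by rw [← hη]; exact (hmem𝓣 T hT).2.1 y hy)
      (fun T hT => (hmem𝓣 T hT).2.2.1)
  obtain ⟨R, hround⟩ := round_peeled hg h0 hp l l₁ hΛ 𝓣 hcount
    (fun T hT => (hmem𝓣 T hT).2.2.2.1) (fun T hT => (hmem𝓣 T hT).2.2.2.2)
  rw [← hκ] at hround
  -- assembling the family
  refine ⟨G' ∪ Finset.univ.filter (fun R : Finset α => (l : ℝ) + 1 ≤ der1 g (2 * p) R) ∪ R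
    ∪ 𝓣.filter (fun T => ∀ r ∈ R, ¬ r ⊆ T), ?_, ?_⟩
  · have h1 := cost_union_le (G' ∪ Finset.univ.filter
      (fun R : Finset α => (l : ℝ) + 1 ≤ der1 g (2 * p) R) ∪ R)
      (𝓣.filter (fun T => ∀ r ∈ R, ¬ r ⊆ T)) hp
    have h2 := cost_union_le (G' ∪ Finset.univ.filter
      (fun R : Finset α => (l : ℝ) + 1 ≤ der1 g (2 * p) R)) R hp
    have h3 := cost_union_le G' (Finset.univ.filter
      (fun R : Finset α => (l : ℝ) + 1 ≤ der1 g (2 * p) R)) hp
    linarith
  · intro V hV hsub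
    have hηcard : η * (V.card : ℝ) ≤ κ := by
      have h1 : (V.card : ℝ) ≤ (l : ℝ) := by exact_mod_cast hV
      have h2 : η * (V.card : ℝ) ≤ η * ((l : ℝ) + 1) :=
        mul_le_mul_of_nonneg_left (by linarith) hη0.le
      have h3 : η * ((l : ℝ) + 1) = κ := by rw [hη, hκ]; field_simp
      linarith
    obtain ⟨T, hTV, hT34, hTshare⟩ := peel hη0.le V hsub
    have hT34' : τ ≤ sub g T := by rw [hτ]; linarith
    by_cases hD : ∃ R', R' ⊆ T ∧ (l : ℝ) + 1 ≤ der1 g (2 * p) R'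
    · obtain ⟨R', hR'T, hR'⟩ := hD
      refine ⟨R', ?_, hR'T.trans hTV⟩
      simp only [Finset.mem_union]
      exact Or.inl (Or.inl (Or.inr (Finset.mem_filter.mpr ⟨Finset.mem_univ _, hR'⟩)))
    by_cases hH : ∃ V', V' ⊆ T ∧ V'.card ≤ l₁ ∧ τ ≤ sub (der1 g (2 * p)) V'
    · obtain ⟨V', hV'T, hV'card, hV'⟩ := hH
      have hsub₂ := sub_nextw h0 hdpos hd hV'
      obtain ⟨U, hU, hUV'⟩ := hG'cov V' hV'card hsub₂
      refine ⟨U, ?_, hUV'.trans (hV'T.trans hTV)⟩
      simp only [Finset.mem_union]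
      exact Or.inl (Or.inl (Or.inl hU))
    have hTmem : T ∈ 𝓣 := by
      rw [h𝓣]
      refine Finset.mem_filter.mpr ⟨Finset.mem_univ _, ?_, hTshare, ?_, hT34', ?_⟩
      · exact (Finset.card_le_card hTV).trans hV
      · intro R' hR'
        by_contra hc
        exact hD ⟨R', hR', not_lt.mp hc⟩
      · intro V' hV' hV'c
        by_contra hc
        exact hH ⟨V', hV', hV'c, not_lt.mp hc⟩
    by_cases hcov : ∃ r ∈ R, r ⊆ T
    · obtain ⟨r, hr, hrT⟩ := hcov
      refine ⟨r, ?_, hrT.trans hTV⟩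
      simp only [Finset.mem_union]
      exact Or.inl (Or.inr hr)
    · refine ⟨T, ?_, hTV⟩
      simp only [Finset.mem_union]
      refine Or.inr (Finset.mem_filter.mpr ⟨hTmem, ?_⟩)
      intro r hr hrT
      exact hcov ⟨r, hr, hrT⟩

lemma goodA_mono {l : ℕ} {L μ δ μ' δ' : ℝ} (h : GoodA α l L μ δ) (hμ : μ' ≤ μ) (hδ : δ ≤ δ') :
    GoodA α l L μ' δ' := by
  intro g q hg h0 hq hm
  obtain ⟨G, hG, hc⟩ := h g q hg h0 hq (hm.trans hμ)
  exact ⟨G, hG.trans hδ, hc⟩

lemma tower_ge_add (k : ℕ) : k + 4 ≤ (fun n : ℕ => 2 ^ n)^[k] 4 := by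
  induction k with
  | zero => simp
  | succ k ih =>
    rw [Function.iterate_succ_apply']
    have h := Nat.lt_two_pow_self (n := (fun n : ℕ => 2 ^ n)^[k] 4)
    show k + 1 + 4 ≤ 2 ^ ((fun n : ℕ => 2 ^ n)^[k] 4)
    omega

lemma tower_step' (τ : ℕ) (hτ : 4 ≤ τ) :
    ((4 * 2 ^ τ + 6) + 1) * ((5 * (4 * 2 ^ τ + 6) + 1) * ((4 * 2 ^ τ + 6) + 1) + (4 * 2 ^ τ + 6))
      ≤ 2 ^ (4 * τ + 6) := by
  have hx : 16 ≤ 2 ^ τ := by
    calc 16 = 2 ^ 4 := by norm_num
      _ ≤ 2 ^ τ := Nat.pow_le_pow_right (by norm_num) hτ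
  have h2 : 2 ^ (4 * τ + 6) = 64 * (2 ^ τ * 2 ^ τ * 2 ^ τ * 2 ^ τ) := by
    rw [pow_add, pow_mul']; norm_num; ring
  rw [h2]
  generalize 2 ^ τ = X at hx
  have h3 : 4 * X + 6 + 1 ≤ 5 * X := by omega
  have h4 : 5 * (4 * X + 6) + 1 ≤ 22 * X := by omega
  have h5 : 4 * X + 6 ≤ 5 * X := by omega
  calc (4 * X + 6 + 1) * ((5 * (4 * X + 6) + 1) * (4 * X + 6 + 1) + (4 * X + 6))
      ≤ (5 * X) * ((22 * X) * (5 * X) + 5 * X) := by gcongr
    _ ≤ 64 * (X * X * X * X) := by nlinarith [Nat.mul_le_mul hx (le_refl (X * X * X))]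

/-- The sizes of the additive recursion. -/
def sizeA (k : ℕ) : ℕ := 4 * ((fun n : ℕ => 2 ^ n)^[k] 4) + 6

/-- The iterated recursion: each level adds `2` to the ratio. -/
theorem goodA_tower (k : ℕ) :
    GoodA α (sizeA k) (3 * 2 ^ 22 + 2 * (k : ℝ)) ((1 / 8) * (1 + (1 / 2) ^ k))
      (1 / 8 + (1 / 8) * (1 - (1 / 2) ^ k)) := by
  induction k with
  | zero =>
    intro g q hg _ hq hm
    have hb := good_base (α := α) (sizeA 0) (3 * 2 ^ 22 + 2 * ((0 : ℕ) : ℝ))
      (by simp [sizeA])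
    obtain ⟨G, hG, hc⟩ := hb g q hg hq (by norm_num at hm ⊢; linarith)
    exact ⟨G, by norm_num at hG ⊢; linarith, hc⟩
  | succ k ih =>
    have hτ : 4 ≤ (fun n : ℕ => 2 ^ n)^[k] 4 := tower_ge k
    have hsize : sizeA (k + 1) = 4 * 2 ^ ((fun n : ℕ => 2 ^ n)^[k] 4) + 6 := by
      unfold sizeA
      rw [Function.iterate_succ_apply']
    have hΛ : (sizeA (k + 1) + 1) * ((5 * sizeA (k + 1) + 1) * (sizeA (k + 1) + 1) + sizeA (k + 1))
        ≤ 2 ^ sizeA k := by
      rw [hsize]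
      exact tower_step' _ hτ
    have hu0 : (0 : ℝ) < (1 / 2) ^ k := by positivity
    have hu1 : ((1 : ℝ) / 2) ^ k ≤ 1 := pow_le_one₀ (by norm_num) (by norm_num)
    have hL : (1 : ℝ) ≤ 3 * 2 ^ 22 + 2 * (k : ℝ) := by
      have : (0 : ℝ) ≤ (k : ℝ) := Nat.cast_nonneg _
      norm_num
      linarith
    have hμ : (1 / 8 : ℝ) * (1 + (1 / 2) ^ k) < 1 := by nlinarith
    have hsize1 : 1 ≤ sizeA (k + 1) := by rw [hsize]; omega
    have hstep := goodA_step (α := α) hsize1 hL hμ ih hΛ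
    -- the size is much larger than the level
    have hbig : (64 : ℝ) * 2 ^ k ≤ (sizeA (k + 1) : ℝ) + 1 := by
      have h1 : 2 ^ (k + 4) ≤ (fun n : ℕ => 2 ^ n)^[k + 1] 4 := by
        rw [Function.iterate_succ_apply']
        exact Nat.pow_le_pow_right (by norm_num) (tower_ge_add k)
      have h2 : 64 * 2 ^ k ≤ sizeA (k + 1) + 1 := by
        unfold sizeA
        have : 2 ^ (k + 4) = 16 * 2 ^ k := by rw [pow_add]; norm_num; ring
        omega
      exact_mod_cast h2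
    obtain ⟨κ, hκ⟩ : ∃ κ : ℝ, κ = 1 / ((sizeA (k + 1) : ℝ) + 1) := ⟨_, rfl⟩
    rw [← hκ] at hstep
    have hκ0 : 0 < κ := by rw [hκ]; positivity
    obtain ⟨u, hu⟩ : ∃ u : ℝ, u = (1 / 2) ^ k := ⟨_, rfl⟩
    have hκu : κ ≤ u / 64 := by
      rw [hκ, hu, div_le_div_iff₀ (by positivity) (by norm_num)]
      have h3 : ((1 : ℝ) / 2) ^ k * 2 ^ k = 1 := by rw [← mul_pow]; norm_num
      have h4 : ((1 : ℝ) / 2) ^ k * ((64 : ℝ) * 2 ^ k) ≤ (1 / 2) ^ k * ((sizeA (k + 1) : ℝ) + 1) :=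
        mul_le_mul_of_nonneg_left hbig hu0.le
      nlinarith
    have hpow : ((1 : ℝ) / 2) ^ (k + 1) = u / 2 := by rw [hu, pow_succ]; ring
    rw [← hu] at hstep hu0 hu1
    have heqL : (3 * 2 ^ 22 + 2 * (k : ℝ)) + 2 = 3 * 2 ^ 22 + 2 * ((k + 1 : ℕ) : ℝ) := by
      push_cast; ring
    rw [heqL] at hstep
    refine goodA_mono hstep ?_ ?_
    · rw [hpow]
      nlinarith
    · rw [hpow]
      nlinarith

/-- The final statement in the language of the thresholds. -/
theorem main_bound_additive (k : ℕ) (F : Finset (Finset α))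
    (hF : ∀ H ∈ F, ∃ H' ∈ F, H' ⊆ H ∧ H'.card ≤ (fun n : ℕ => 2 ^ n)^[k] 4)
    (p : ℝ) (hp : 0 ≤ p) (g : Finset α → ℝ) (hg : ∀ S, 0 ≤ g S)
    (hcov : ∀ H ∈ F, 1 ≤ ∑ S ∈ H.powerset, g S)
    (hcost : ∑ S : Finset α, g S * p ^ S.card ≤ 1 / 2) :
    ∃ G : Finset (Finset α), (∀ H ∈ F, ∃ U ∈ G, U ⊆ H) ∧
      ∑ U ∈ G, (p / (3 * 2 ^ 25 + 16 * (k : ℝ))) ^ U.card ≤ 1 / 2 := by
  have hempty : g ∅ ≤ 1 / 2 := by
    have h := g_empty_le hg hp (g := g)
    exact h.trans hcost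
  have hg₁nn : ∀ S, 0 ≤ (fun S : Finset α => if S = ∅ then 0 else 2 * g S) S := by
    intro S
    dsimp only
    split_ifs
    · exact le_rfl
    · have := hg S
      linarith
  have hq : 0 ≤ p / 8 := by positivity
  have hmass : mass (fun S : Finset α => if S = ∅ then 0 else 2 * g S) (p / 8) ≤ 1 / 8 := by
    have hterm : ∀ S : Finset α, (if S = ∅ then 0 else 2 * g S) * (p / 8) ^ S.card
        ≤ (1 / 4) * (g S * p ^ S.card) := by
      intro S
      split_ifs with h0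
      · rw [zero_mul]
        exact mul_nonneg (by norm_num) (mul_nonneg (hg S) (pow_nonneg hp _))
      · have hcard : 1 ≤ S.card := Finset.card_pos.mpr (Finset.nonempty_iff_ne_empty.mpr h0)
        have h1 : (p / 8) ^ S.card ≤ (1 / 8) * p ^ S.card := by
          rw [div_pow, div_eq_mul_inv, mul_comm (p ^ S.card), one_div]
          apply mul_le_mul_of_nonneg_right _ (pow_nonneg hp _)
          apply inv_anti₀ (by norm_num)
          calc (8 : ℝ) = 8 ^ 1 := by norm_num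
            _ ≤ 8 ^ S.card := pow_le_pow_right₀ (by norm_num) hcard
        have h2 := mul_le_mul_of_nonneg_left h1 (mul_nonneg (by norm_num : (0 : ℝ) ≤ 2) (hg S))
        calc 2 * g S * (p / 8) ^ S.card ≤ 2 * g S * ((1 / 8) * p ^ S.card) := h2
          _ = _ := by ring
    unfold mass
    calc ∑ S : Finset α, (if S = ∅ then 0 else 2 * g S) * (p / 8) ^ S.card
        ≤ ∑ S : Finset α, (1 / 4) * (g S * p ^ S.card) := Finset.sum_le_sum fun S _ => hterm S
      _ = (1 / 4) * ∑ S : Finset α, g S * p ^ S.card := by rw [Finset.mul_sum]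
      _ ≤ 1 / 8 := by linarith
  have hu0 : (0 : ℝ) < (1 / 2) ^ k := by positivity
  have hu1 : ((1 : ℝ) / 2) ^ k ≤ 1 := pow_le_one₀ (by norm_num) (by norm_num)
  obtain ⟨G, hGcost, hGcov⟩ := goodA_tower (α := α) k
    (fun S : Finset α => if S = ∅ then 0 else 2 * g S) (p / 8) hg₁nn (by simp) hq
    (by nlinarith)
  refine ⟨G, ?_, ?_⟩
  · intro H hH
    obtain ⟨H', hH'F, hH'H, hH'card⟩ := hF H hH
    have hsub : 1 ≤ sub (fun S : Finset α => if S = ∅ then 0 else 2 * g S) H' := by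
      have h1 := hcov H' hH'F
      have h2 : sub (fun S : Finset α => if S = ∅ then 0 else 2 * g S) H'
          = 2 * ∑ S ∈ H'.powerset.erase ∅, g S := by
        unfold sub
        rw [← Finset.add_sum_erase _ _ (Finset.empty_mem_powerset H'), Finset.mul_sum]
        simp only [if_true, zero_add]
        apply Finset.sum_congr rfl
        intro S hS
        rw [if_neg (Finset.mem_erase.mp hS).1]
      have h4 : ∑ S ∈ H'.powerset, g S = g ∅ + ∑ S ∈ H'.powerset.erase ∅, g S := by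
        rw [Finset.add_sum_erase _ _ (Finset.empty_mem_powerset H')]
      rw [h2]
      linarith
    obtain ⟨U, hU, hUH'⟩ := hGcov H' (by unfold sizeA; omega) hsub
    exact ⟨U, hU, hUH'.trans hH'H⟩
  · have heq : p / 8 / (3 * 2 ^ 22 + 2 * (k : ℝ)) = p / (3 * 2 ^ 25 + 16 * (k : ℝ)) := by
      rw [div_div]
      congr 1
      ring
    rw [heq] at hGcost
    unfold cost at hGcost
    nlinarith

end Vale.Agent.P034
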