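import Mathlib

/-!
Elementary recursion for fractional versus integral expectation thresholds.
-/

namespace Vale.Agent.P034

open Finset

set_option linter.unusedSectionVars false

variable {α : Type*} [Fintype α] [DecidableEq α]

/-- The total weight `g[V]` of the subsets of `V`. -/
noncomputable def sub (g : Finset α → ℝ) (V : Finset α) : ℝ := ∑ S ∈ V.powerset, g S

/-- The cost `∑ g(S) q^{|S|}` of a weight function at level `q`. -/
noncomputable def mass (g : Finset α → ℝ) (q : ℝ) : ℝ := ∑ S : Finset α, g S * q ^ S.card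

/-- The cost of a family of sets at level `p`. -/
noncomputable def cost (G : Finset (Finset α)) (p : ℝ) : ℝ := ∑ U ∈ G, p ^ U.card

/-- The recursion statement: every weight of mass at most `1/4` at `q` admits a family of cost at
most `1/8` at `q / L` meeting below every set of size at most `l` with `g[V] ≥ 1`. -/
def Good (α : Type*) [Fintype α] [DecidableEq α] (l : ℕ) (L : ℝ) : Prop :=
  ∀ (g : Finset α → ℝ) (q : ℝ), (∀ S, 0 ≤ g S) → 0 ≤ q → mass g q ≤ 1 / 4 →
    ∃ G : Finset (Finset α), cost G (q / L) ≤ 1 / 8 ∧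
      ∀ V : Finset α, V.card ≤ l → 1 ≤ sub g V → ∃ U ∈ G, U ⊆ V

lemma mass_nonneg {g : Finset α → ℝ} (hg : ∀ S, 0 ≤ g S) {q : ℝ} (hq : 0 ≤ q) : 0 ≤ mass g q :=
  Finset.sum_nonneg fun S _ => mul_nonneg (hg S) (pow_nonneg hq _)

lemma g_empty_le {g : Finset α → ℝ} (hg : ∀ S, 0 ≤ g S) {q : ℝ} (hq : 0 ≤ q) :
    g ∅ ≤ mass g q := by
  have h := Finset.single_le_sum (f := fun S : Finset α => g S * q ^ S.card)
    (fun S _ => mul_nonneg (hg S) (pow_nonneg hq _)) (Finset.mem_univ (∅ : Finset α))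
  simpa [mass] using h

lemma sub_nonneg' {g : Finset α → ℝ} (hg : ∀ S, 0 ≤ g S) (V : Finset α) : 0 ≤ sub g V :=
  Finset.sum_nonneg fun S _ => hg S

/-- The base of the recursion. -/
lemma good_base (l : ℕ) (L : ℝ) (hL : 3 * 2 ^ l ≤ L) : Good α l L := by
  classical
  intro g q hg hq hm
  have hL1 : (1 : ℝ) ≤ L := by
    have : (1 : ℝ) ≤ 2 ^ l := one_le_pow₀ (by norm_num)
    linarith
  have hL0 : (0 : ℝ) < L := by linarith
  have h2 : (0 : ℝ) < 2 ^ l := by positivity
  set c : ℝ := (3 / 4) / 2 ^ l with hc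
  have hc0 : 0 < c := by positivity
  refine ⟨Finset.univ.filter (fun R : Finset α => R ≠ ∅ ∧ c ≤ g R), ?_, ?_⟩
  · -- the cost estimate
    have hterm : ∀ R ∈ Finset.univ.filter (fun R : Finset α => R ≠ ∅ ∧ c ≤ g R),
        (q / L) ^ R.card ≤ (1 / L) * (1 / c) * (g R * q ^ R.card) := by
      intro R hR
      obtain ⟨hR0, hRc⟩ := (Finset.mem_filter.mp hR).2
      have hcard : 1 ≤ R.card := Finset.card_pos.mpr (Finset.nonempty_iff_ne_empty.mpr hR0)
      have h1 : (q / L) ^ R.card ≤ (1 / L) * q ^ R.card := by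
        rw [div_pow]
        have : L ≤ L ^ R.card := by
          calc L = L ^ 1 := (pow_one L).symm
            _ ≤ L ^ R.card := pow_le_pow_right₀ hL1 hcard
        rw [div_eq_mul_inv, one_div, mul_comm]
        apply mul_le_mul_of_nonneg_right _ (pow_nonneg hq _)
        exact inv_anti₀ hL0 this
      have h3 : 1 ≤ (1 / c) * g R := by
        rw [one_div, ← div_eq_inv_mul, le_div_iff₀ hc0]
        linarith
      calc (q / L) ^ R.card ≤ (1 / L) * q ^ R.card := h1
        _ = (1 / L) * q ^ R.card * 1 := by ring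
        _ ≤ (1 / L) * q ^ R.card * ((1 / c) * g R) := by
            apply mul_le_mul_of_nonneg_left h3
            positivity
        _ = (1 / L) * (1 / c) * (g R * q ^ R.card) := by ring
    have hsum : cost (Finset.univ.filter (fun R : Finset α => R ≠ ∅ ∧ c ≤ g R)) (q / L)
        ≤ (1 / L) * (1 / c) * mass g q := by
      unfold cost mass
      calc _ ≤ ∑ R ∈ Finset.univ.filter (fun R : Finset α => R ≠ ∅ ∧ c ≤ g R),
            (1 / L) * (1 / c) * (g R * q ^ R.card) := Finset.sum_le_sum hterm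
        _ = (1 / L) * (1 / c) * ∑ R ∈ Finset.univ.filter (fun R : Finset α => R ≠ ∅ ∧ c ≤ g R),
            (g R * q ^ R.card) := by rw [Finset.mul_sum]
        _ ≤ (1 / L) * (1 / c) * ∑ R : Finset α, g R * q ^ R.card := by
            apply mul_le_mul_of_nonneg_left _ (by positivity)
            exact Finset.sum_le_sum_of_subset_of_nonneg (Finset.filter_subset _ _)
              (fun S _ _ => mul_nonneg (hg S) (pow_nonneg hq _))
    refine hsum.trans ?_
    have h4 : (1 / L) * (1 / c) * mass g q ≤ (1 / L) * (1 / c) * (1 / 4) :=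
      mul_le_mul_of_nonneg_left hm (by positivity)
    refine h4.trans ?_
    have h5 : (1 / L) * (1 / c) * (1 / 4) = 2 ^ l / (3 * L) := by
      rw [hc]; field_simp
    rw [h5, div_le_iff₀ (by positivity)]
    nlinarith
  · intro V hV hsub
    have hempty : g ∅ ≤ 1 / 4 := (g_empty_le hg hq).trans hm
    by_contra hno
    have hsmall : ∀ R ∈ V.powerset.erase ∅, g R ≤ c := by
      intro R hR
      obtain ⟨hR0, hRV⟩ := Finset.mem_erase.mp hR
      by_contra hlt
      exact hno ⟨R, Finset.mem_filter.mpr ⟨Finset.mem_univ _, hR0, (not_le.mp hlt).le⟩,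
        Finset.mem_powerset.mp hRV⟩
    have hcardle : (V.powerset.erase ∅).card + 1 ≤ 2 ^ l := by
      rw [Finset.card_erase_of_mem (Finset.empty_mem_powerset V), Finset.card_powerset]
      have h1 : 2 ^ V.card ≤ 2 ^ l := Nat.pow_le_pow_right (by norm_num) hV
      have h2 : 1 ≤ 2 ^ V.card := Nat.one_le_two_pow
      omega
    have hsumle : ∑ R ∈ V.powerset.erase ∅, g R ≤ ((V.powerset.erase ∅).card : ℝ) * c := by
      have := Finset.sum_le_card_nsmul _ _ c hsmall
      simpa using this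
    have hsplit : sub g V = g ∅ + ∑ R ∈ V.powerset.erase ∅, g R := by
      unfold sub
      rw [Finset.add_sum_erase _ _ (Finset.empty_mem_powerset V)]
    have hcardR : (((V.powerset.erase ∅).card : ℝ) + 1) ≤ 2 ^ l := by exact_mod_cast hcardle
    have : ((V.powerset.erase ∅).card : ℝ) * c ≤ (2 ^ l - 1) * c := by
      apply mul_le_mul_of_nonneg_right _ hc0.le
      linarith
    have hc2 : (2 ^ l : ℝ) * c = 3 / 4 := by rw [hc]; field_simp
    nlinarith


/-- The derived weight at level `a`. -/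
noncomputable def der (g : Finset α → ℝ) (a : ℝ) (R : Finset α) : ℝ :=
  4 * ∑ S ∈ Finset.univ.filter (fun S : Finset α => S ≠ ∅ ∧ R ⊆ S), g S * a ^ (S.card - R.card)

lemma der_nonneg {g : Finset α → ℝ} (hg : ∀ S, 0 ≤ g S) {a : ℝ} (ha : 0 ≤ a) (R : Finset α) :
    0 ≤ der g a R :=
  mul_nonneg (by norm_num) (Finset.sum_nonneg fun S _ => mul_nonneg (hg S) (pow_nonneg ha _))

lemma der_sum_eq (g : Finset α → ℝ) (a : ℝ) (R : Finset α) :
    ∑ S ∈ Finset.univ.filter (fun S : Finset α => S ≠ ∅ ∧ R ⊆ S), g S * a ^ (S.card - R.card)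
      = ∑ S ∈ Finset.univ.filter (fun S : Finset α => S ≠ ∅),
          if R ⊆ S then g S * a ^ (S.card - R.card) else 0 := by
  rw [← Finset.filter_filter, Finset.sum_filter]

/-- `g'[V]` dominates the potential of `V`. -/
lemma sub_der_ge {g : Finset α → ℝ} (hg : ∀ S, 0 ≤ g S) {a : ℝ} (ha : 0 ≤ a) (V : Finset α) :
    4 * ∑ S ∈ Finset.univ.filter (fun S : Finset α => S ≠ ∅), g S * a ^ (S \ V).card
      ≤ sub (der g a) V := by
  unfold sub der
  simp_rw [der_sum_eq]
  rw [← Finset.mul_sum, Finset.sum_comm]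
  apply mul_le_mul_of_nonneg_left _ (by norm_num)
  apply Finset.sum_le_sum
  intro S _
  have hmem : S ∩ V ∈ V.powerset := Finset.mem_powerset.mpr Finset.inter_subset_right
  have h := Finset.single_le_sum
    (f := fun R : Finset α => if R ⊆ S then g S * a ^ (S.card - R.card) else 0)
    (fun R _ => by
      split_ifs
      · exact mul_nonneg (hg S) (pow_nonneg ha _)
      · exact le_rfl) hmem
  have hc : S.card - (S ∩ V).card = (S \ V).card := by
    have := Finset.card_sdiff_add_card_inter S V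
    omega
  simp only [Finset.inter_subset_left, if_true, hc] at h
  exact h

lemma powerset_eq_filter (S : Finset α) :
    Finset.univ.filter (fun R : Finset α => R ⊆ S) = S.powerset := by
  ext R; simp

lemma mass_der_eq (g : Finset α → ℝ) (a x : ℝ) :
    mass (der g a) x
      = 4 * ∑ S ∈ Finset.univ.filter (fun S : Finset α => S ≠ ∅), g S * (x + a) ^ S.card := by
  unfold mass der
  simp_rw [der_sum_eq]
  simp_rw [mul_assoc, Finset.sum_mul]
  rw [← Finset.mul_sum]
  congr 1
  rw [Finset.sum_comm]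
  apply Finset.sum_congr rfl
  intro S _
  rw [← Finset.sum_pow_mul_eq_add_pow, Finset.mul_sum]
  rw [← powerset_eq_filter S, Finset.sum_filter]
  apply Finset.sum_congr rfl
  intro R _
  split_ifs
  · ring
  · ring

lemma mass_der_le {g : Finset α → ℝ} (hg : ∀ S, 0 ≤ g S) {a x q : ℝ} (ha : 0 ≤ a) (hx : 0 ≤ x)
    (hq : 0 ≤ q) (hax : a + x ≤ q / 4) : mass (der g a) x ≤ mass g q := by
  rw [mass_der_eq]
  have h1 : ∀ S ∈ Finset.univ.filter (fun S : Finset α => S ≠ ∅),
      g S * (x + a) ^ S.card ≤ (1 / 4) * (g S * q ^ S.card) := by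
    intro S hS
    have hS0 : S ≠ ∅ := (Finset.mem_filter.mp hS).2
    have hcard : 1 ≤ S.card := Finset.card_pos.mpr (Finset.nonempty_iff_ne_empty.mpr hS0)
    have h2 : (x + a) ^ S.card ≤ (q / 4) ^ S.card :=
      pow_le_pow_left₀ (by linarith) (by linarith) _
    have h3 : (q / 4) ^ S.card ≤ (1 / 4) * q ^ S.card := by
      rw [div_pow, div_eq_mul_inv, mul_comm (q ^ S.card), one_div]
      apply mul_le_mul_of_nonneg_right _ (pow_nonneg hq _)
      apply inv_anti₀ (by norm_num)
      calc (4 : ℝ) = 4 ^ 1 := by norm_num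
        _ ≤ 4 ^ S.card := pow_le_pow_right₀ (by norm_num) hcard
    calc g S * (x + a) ^ S.card ≤ g S * ((1 / 4) * q ^ S.card) :=
          mul_le_mul_of_nonneg_left (h2.trans h3) (hg S)
      _ = (1 / 4) * (g S * q ^ S.card) := by ring
  have h4 := Finset.sum_le_sum h1
  rw [← Finset.mul_sum] at h4
  have h5 : ∑ S ∈ Finset.univ.filter (fun S : Finset α => S ≠ ∅), g S * q ^ S.card ≤ mass g q :=
    Finset.sum_le_sum_of_subset_of_nonneg (Finset.filter_subset _ _)
      (fun S _ _ => mul_nonneg (hg S) (pow_nonneg hq _))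
  linarith

/-- A light set has small `g`-weight. -/
lemma sub_le_half_of_light {g : Finset α → ℝ} (hg : ∀ S, 0 ≤ g S) {a : ℝ} (ha : 0 ≤ a)
    (hempty : g ∅ ≤ 1 / 4) {V : Finset α} (hV : sub (der g a) V < 1) : sub g V ≤ 1 / 2 := by
  have h1 := sub_der_ge hg ha V
  have h2 : ∑ S ∈ V.powerset.erase ∅, g S
      ≤ ∑ S ∈ Finset.univ.filter (fun S : Finset α => S ≠ ∅), g S * a ^ (S \ V).card := by
    have hsub : V.powerset.erase ∅ ⊆ Finset.univ.filter (fun S : Finset α => S ≠ ∅) := by
      intro S hS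
      exact Finset.mem_filter.mpr ⟨Finset.mem_univ _, (Finset.mem_erase.mp hS).1⟩
    calc ∑ S ∈ V.powerset.erase ∅, g S
        = ∑ S ∈ V.powerset.erase ∅, g S * a ^ (S \ V).card := by
          apply Finset.sum_congr rfl
          intro S hS
          have : S ⊆ V := Finset.mem_powerset.mp (Finset.mem_erase.mp hS).2
          rw [Finset.sdiff_eq_empty_iff_subset.mpr this]
          simp
      _ ≤ _ := Finset.sum_le_sum_of_subset_of_nonneg hsub
          (fun S _ _ => mul_nonneg (hg S) (pow_nonneg ha _))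
  have h3 : sub g V = g ∅ + ∑ S ∈ V.powerset.erase ∅, g S := by
    unfold sub
    rw [Finset.add_sum_erase _ _ (Finset.empty_mem_powerset V)]
  linarith

lemma card_sdiff_split {V S W : Finset α} (h : V ∪ S ⊆ W) :
    (W \ V).card = (S \ V).card + (W \ (V ∪ S)).card := by
  have hV : V ⊆ W := Finset.union_subset_left h
  have h1 := Finset.card_sdiff_add_card_eq_card hV
  have h2 := Finset.card_sdiff_add_card_eq_card h
  have h3 := Finset.card_sdiff_add_card_eq_card (Finset.subset_union_left (s₁ := V) (s₂ := S))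
  rw [Finset.union_sdiff_left] at h3
  omega

/-- The leaf of the path tree. -/
lemma tree_leaf {g : Finset α → ℝ} {a : ℝ} (l₁ : ℕ) (V : Finset α) (hV : l₁ ≤ V.card) :
    ∃ h : Finset α → ℝ, (∀ W, 0 ≤ h W) ∧ (∀ W, h W ≠ 0 → V ⊆ W ∧ l₁ ≤ W.card) ∧
      (∑ W, h W * a ^ (W \ V).card ≤ 1) ∧
      (∀ T, V ⊆ T → 3 / 4 ≤ sub g T →
        (∀ V' ⊆ T, V'.card ≤ l₁ → sub (der g a) V' < 1) → 1 ≤ ∑ W ∈ T.powerset, h W) := by
  refine ⟨fun W => if W = V then 1 else 0, ?_, ?_, ?_, ?_⟩
  · intro W; dsimp only; split_ifs <;> norm_num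
  · intro W hW
    dsimp only at hW
    split_ifs at hW with hWV
    · rw [hWV]; exact ⟨Finset.Subset.refl _, hV⟩
    · exact absurd rfl hW
  · rw [Finset.sum_eq_single V]
    · simp
    · intro W _ hW; simp [hW]
    · intro h; exact absurd (Finset.mem_univ V) h
  · intro T hT _ _
    rw [Finset.sum_eq_single V]
    · simp
    · intro W _ hW; simp [hW]
    · intro h; exact absurd (Finset.mem_powerset.mpr hT) h

/-- The path tree: fractional weights on large sets, of small cost, giving total weight at least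
one inside every set all of whose small subsets are light. -/
lemma tree_exists {g : Finset α → ℝ} (hg : ∀ S, 0 ≤ g S) {a : ℝ} (ha : 0 ≤ a) (l₁ : ℕ)
    (hempty : g ∅ ≤ 1 / 4) :
    ∀ (n : ℕ) (V : Finset α), l₁ ≤ V.card + n →
      ∃ h : Finset α → ℝ, (∀ W, 0 ≤ h W) ∧ (∀ W, h W ≠ 0 → V ⊆ W ∧ l₁ ≤ W.card) ∧
        (∑ W, h W * a ^ (W \ V).card ≤ 1) ∧
        (∀ T, V ⊆ T → 3 / 4 ≤ sub g T →
          (∀ V' ⊆ T, V'.card ≤ l₁ → sub (der g a) V' < 1) → 1 ≤ ∑ W ∈ T.powerset, h W) := by
  intro n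
  induction n with
  | zero =>
    intro V hV
    exact tree_leaf l₁ V (by omega)
  | succ n ih =>
    intro V hV
    by_cases hlarge : l₁ ≤ V.card
    · exact tree_leaf l₁ V hlarge
    by_cases hlight : sub (der g a) V < 1
    swap
    · refine ⟨fun _ => 0, fun _ => le_rfl, fun W hW => absurd rfl hW, by simp, ?_⟩
      intro T hT _ hall
      exact absurd (hall V hT (by omega)) hlight
    -- the internal node
    have key : ∀ S : Finset α, ∃ h : Finset α → ℝ, ¬ S ⊆ V →
        (∀ W, 0 ≤ h W) ∧ (∀ W, h W ≠ 0 → V ∪ S ⊆ W ∧ l₁ ≤ W.card) ∧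
        (∑ W, h W * a ^ (W \ (V ∪ S)).card ≤ 1) ∧
        (∀ T, V ∪ S ⊆ T → 3 / 4 ≤ sub g T →
          (∀ V' ⊆ T, V'.card ≤ l₁ → sub (der g a) V' < 1) → 1 ≤ ∑ W ∈ T.powerset, h W) := by
      intro S
      by_cases hS : S ⊆ V
      · exact ⟨fun _ => 0, fun h => absurd hS h⟩
      · have hlt : V.card < (V ∪ S).card := by
          apply Finset.card_lt_card
          refine ⟨Finset.subset_union_left, ?_⟩
          intro hsub
          exact hS (Finset.union_subset_right hsub)
        obtain ⟨h, h1⟩ := ih (V ∪ S) (by omega)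
        exact ⟨h, fun _ => h1⟩
    choose hS hprops using key
    set D := Finset.univ.filter (fun S : Finset α => ¬ S ⊆ V) with hD
    have hDmem : ∀ S ∈ D, ¬ S ⊆ V := fun S hS' => (Finset.mem_filter.mp hS').2
    refine ⟨fun W => ∑ S ∈ D, 4 * g S * hS S W, ?_, ?_, ?_, ?_⟩
    · intro W
      exact Finset.sum_nonneg fun S hS' =>
        mul_nonneg (mul_nonneg (by norm_num) (hg S)) ((hprops S (hDmem S hS')).1 W)
    · intro W hW
      obtain ⟨S, hS', hne⟩ := Finset.exists_ne_zero_of_sum_ne_zero hW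
      have hne2 : hS S W ≠ 0 := by
        intro h0; apply hne; rw [h0, mul_zero]
      obtain ⟨h1, h2⟩ := (hprops S (hDmem S hS')).2.1 W hne2
      exact ⟨(Finset.union_subset_left h1), h2⟩
    · -- the cost
      have hstep : ∀ S ∈ D, ∑ W, hS S W * a ^ (W \ V).card ≤ a ^ (S \ V).card := by
        intro S hS'
        obtain ⟨_, hsupp, hcost, _⟩ := hprops S (hDmem S hS')
        have heq : ∑ W, hS S W * a ^ (W \ V).card
            = a ^ (S \ V).card * ∑ W, hS S W * a ^ (W \ (V ∪ S)).card := by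
          rw [Finset.mul_sum]
          apply Finset.sum_congr rfl
          intro W _
          by_cases h0 : hS S W = 0
          · simp [h0]
          · rw [card_sdiff_split (hsupp W h0).1, pow_add]; ring
        rw [heq]
        calc _ ≤ a ^ (S \ V).card * 1 :=
              mul_le_mul_of_nonneg_left hcost (pow_nonneg ha _)
          _ = _ := mul_one _
      calc ∑ W, (∑ S ∈ D, 4 * g S * hS S W) * a ^ (W \ V).card
          = ∑ S ∈ D, 4 * g S * ∑ W, hS S W * a ^ (W \ V).card := by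
            simp_rw [Finset.sum_mul]
            rw [Finset.sum_comm]
            apply Finset.sum_congr rfl
            intro S _
            rw [Finset.mul_sum]
            apply Finset.sum_congr rfl
            intro W _
            ring
        _ ≤ ∑ S ∈ D, 4 * g S * a ^ (S \ V).card := by
            apply Finset.sum_le_sum
            intro S hS'
            exact mul_le_mul_of_nonneg_left (hstep S hS') (mul_nonneg (by norm_num) (hg S))
        _ = 4 * ∑ S ∈ D, g S * a ^ (S \ V).card := by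
            rw [Finset.mul_sum]
            apply Finset.sum_congr rfl
            intro S _
            ring
        _ ≤ 4 * ∑ S ∈ Finset.univ.filter (fun S : Finset α => S ≠ ∅), g S * a ^ (S \ V).card := by
            apply mul_le_mul_of_nonneg_left _ (by norm_num)
            apply Finset.sum_le_sum_of_subset_of_nonneg
            · intro S hS'
              refine Finset.mem_filter.mpr ⟨Finset.mem_univ _, ?_⟩
              intro h0
              apply hDmem S hS'
              rw [h0]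
              exact Finset.empty_subset _
            · intro S _ _
              exact mul_nonneg (hg S) (pow_nonneg ha _)
        _ ≤ sub (der g a) V := sub_der_ge hg ha V
        _ ≤ 1 := hlight.le
    · -- the lower bound
      intro T hVT hT hall
      have hV2 : sub g V ≤ 1 / 2 := sub_le_half_of_light hg ha hempty hlight
      have hinner : ∀ S ∈ D, 4 * g S * (if S ⊆ T then 1 else 0)
          ≤ 4 * g S * ∑ W ∈ T.powerset, hS S W := by
        intro S hS'
        apply mul_le_mul_of_nonneg_left _ (mul_nonneg (by norm_num) (hg S))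
        obtain ⟨hnn, _, _, hlow⟩ := hprops S (hDmem S hS')
        split_ifs with hST
        · exact hlow T (Finset.union_subset hVT hST) hT hall
        · exact Finset.sum_nonneg fun W _ => hnn W
      have hsum1 : ∑ W ∈ T.powerset, ∑ S ∈ D, 4 * g S * hS S W
          = ∑ S ∈ D, 4 * g S * ∑ W ∈ T.powerset, hS S W := by
        rw [Finset.sum_comm]
        apply Finset.sum_congr rfl
        intro S _
        rw [Finset.mul_sum]
      rw [hsum1]
      refine le_trans ?_ (Finset.sum_le_sum hinner)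
      have hsum2 : ∑ S ∈ D, 4 * g S * (if S ⊆ T then (1 : ℝ) else 0)
          = 4 * (sub g T - sub g V) := by
        have hsd : sub g T - sub g V = ∑ S ∈ T.powerset \ V.powerset, g S := by
          unfold sub
          rw [← Finset.sum_sdiff (Finset.powerset_mono.mpr hVT)]
          ring
        rw [hsd, Finset.mul_sum]
        have hset : T.powerset \ V.powerset = D.filter (fun S => S ⊆ T) := by
          ext S
          simp only [Finset.mem_sdiff, Finset.mem_powerset, Finset.mem_filter, hD,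
            Finset.mem_univ, true_and]
          tauto
        have hfilt : ∑ i ∈ D.filter (fun S => S ⊆ T), 4 * g i
            = ∑ i ∈ D, if i ⊆ T then 4 * g i else 0 := Finset.sum_filter _ _
        rw [hset, hfilt]
        apply Finset.sum_congr rfl
        intro S _
        split_ifs <;> ring
      rw [hsum2]
      linarith

/-- The final form of the tree: cost at `p` at most `(1/2)^l₁`. -/
lemma tree_final {g : Finset α → ℝ} (hg : ∀ S, 0 ≤ g S) {p : ℝ} (hp : 0 ≤ p) (l₁ : ℕ)
    (hempty : g ∅ ≤ 1 / 4) :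
    ∃ h : Finset α → ℝ, (∀ W, 0 ≤ h W) ∧ (∑ W, h W * p ^ W.card ≤ (1 / 2) ^ l₁) ∧
      (∀ T, 3 / 4 ≤ sub g T →
        (∀ V' ⊆ T, V'.card ≤ l₁ → sub (der g (2 * p)) V' < 1) → 1 ≤ ∑ W ∈ T.powerset, h W) := by
  obtain ⟨h, hnn, hsupp, hcost, hlow⟩ :=
    tree_exists hg (a := 2 * p) (by positivity) l₁ hempty l₁ ∅ (by omega)
  refine ⟨h, hnn, ?_, fun T hT hall => hlow T (Finset.empty_subset _) hT hall⟩
  have hterm : ∀ W, h W * p ^ W.card ≤ (1 / 2) ^ l₁ * (h W * (2 * p) ^ (W \ ∅).card) := by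
    intro W
    by_cases h0 : h W = 0
    · simp [h0]
    · have hl : l₁ ≤ W.card := (hsupp W h0).2
      have h1 : p ^ W.card = (1 / 2) ^ W.card * (2 * p) ^ W.card := by
        rw [← mul_pow]; congr 1; ring
      have h2 : ((1 : ℝ) / 2) ^ W.card ≤ (1 / 2) ^ l₁ :=
        pow_le_pow_of_le_one (by norm_num) (by norm_num) hl
      rw [Finset.sdiff_empty, h1]
      have h3 : 0 ≤ h W * (2 * p) ^ W.card := mul_nonneg (hnn W) (by positivity)
      calc h W * ((1 / 2) ^ W.card * (2 * p) ^ W.card)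
          = (1 / 2) ^ W.card * (h W * (2 * p) ^ W.card) := by ring
        _ ≤ _ := mul_le_mul_of_nonneg_right h2 h3
  calc ∑ W, h W * p ^ W.card ≤ ∑ W, (1 / 2) ^ l₁ * (h W * (2 * p) ^ (W \ ∅).card) :=
        Finset.sum_le_sum fun W _ => hterm W
    _ = (1 / 2) ^ l₁ * ∑ W, h W * (2 * p) ^ (W \ ∅).card := by rw [Finset.mul_sum]
    _ ≤ (1 / 2) ^ l₁ * 1 := mul_le_mul_of_nonneg_left hcost (by positivity)
    _ = _ := mul_one _


/-- Derandomized rounding by conditional expectations. -/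
lemma round_aux (𝒯 : Finset (Finset α)) (c π : Finset α → ℝ)
    (hπ0 : ∀ r, 0 ≤ π r) (hπ1 : ∀ r, π r ≤ 1) (hc : ∀ r, 0 ≤ c r) :
    ∀ (𝒜 : Finset (Finset α)) (w : Finset α → ℝ), (∀ T, 0 ≤ w T) →
      ∃ R, R ⊆ 𝒜 ∧ ∑ r ∈ R, c r + ∑ T ∈ 𝒯.filter (fun T => ∀ r ∈ R, ¬ r ⊆ T), w T
        ≤ ∑ r ∈ 𝒜, π r * c r + ∑ T ∈ 𝒯, w T * ∏ r ∈ 𝒜.filter (fun r => r ⊆ T), (1 - π r) := by
  intro 𝒜
  induction 𝒜 using Finset.induction_on with
  | empty =>
    intro w _
    refine ⟨∅, Finset.Subset.refl _, ?_⟩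
    simp
  | insert a s ha ih =>
    intro w hw
    obtain ⟨R₀, hR₀, h₀⟩ := ih w hw
    obtain ⟨R₁, hR₁, h₁⟩ := ih (fun T => if a ⊆ T then 0 else w T) (fun T => by
      split_ifs
      · exact le_rfl
      · exact hw T)
    set A := ∑ r ∈ s, π r * c r with hA
    set P : Finset α → ℝ := fun T => ∏ r ∈ s.filter (fun r => r ⊆ T), (1 - π r) with hP
    set v₀ := A + ∑ T ∈ 𝒯, w T * P T with hv₀
    set v₁ := c a + A + ∑ T ∈ 𝒯, (if a ⊆ T then 0 else w T) * P T with hv₁
    have hprod : ∀ T, ∏ r ∈ (insert a s).filter (fun r => r ⊆ T), (1 - π r)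
        = if a ⊆ T then (1 - π a) * P T else P T := by
      intro T
      rw [Finset.filter_insert]
      split_ifs with h
      · rw [Finset.prod_insert]
        intro hmem
        exact ha (Finset.mem_filter.mp hmem).1
      · rfl
    have hRHS : ∑ r ∈ insert a s, π r * c r
          + ∑ T ∈ 𝒯, w T * ∏ r ∈ (insert a s).filter (fun r => r ⊆ T), (1 - π r)
        = π a * v₁ + (1 - π a) * v₀ := by
      rw [Finset.sum_insert ha, hv₁, hv₀]
      simp_rw [hprod]
      have h1 : ∑ T ∈ 𝒯, w T * (if a ⊆ T then (1 - π a) * P T else P T)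
          = π a * ∑ T ∈ 𝒯, (if a ⊆ T then 0 else w T) * P T
            + (1 - π a) * ∑ T ∈ 𝒯, w T * P T := by
        rw [Finset.mul_sum, Finset.mul_sum, ← Finset.sum_add_distrib]
        apply Finset.sum_congr rfl
        intro T _
        split_ifs <;> ring
      rw [h1]
      ring
    by_cases hcase : v₀ ≤ π a * v₁ + (1 - π a) * v₀
    · refine ⟨R₀, hR₀.trans (Finset.subset_insert _ _), ?_⟩
      rw [hRHS]
      exact h₀.trans hcase
    · have hnot : v₁ ≤ π a * v₁ + (1 - π a) * v₀ := by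
        have hlt := not_le.mp hcase
        have h1 : 0 ≤ 1 - π a := by linarith [hπ1 a]
        -- from the failure of the first case, the second value is smaller
        have h2 : π a * (v₁ - v₀) < 0 := by nlinarith
        have h3 : 0 < π a := by
          by_contra hc0
          have : π a = 0 := le_antisymm (not_lt.mp hc0) (hπ0 a)
          rw [this] at h2
          simp at h2
        have h4 : v₁ - v₀ < 0 := by
          by_contra hc0
          have : 0 ≤ v₁ - v₀ := not_lt.mp hc0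
          have := mul_nonneg h3.le this
          linarith
        nlinarith
      have haR : a ∉ R₁ := fun hmem => ha (hR₁ hmem)
      refine ⟨insert a R₁, Finset.insert_subset_insert _ hR₁, ?_⟩
      rw [hRHS, Finset.sum_insert haR]
      refine le_trans ?_ hnot
      have hfilt : ∑ T ∈ 𝒯.filter (fun T => ∀ r ∈ insert a R₁, ¬ r ⊆ T), w T
          = ∑ T ∈ 𝒯.filter (fun T => ∀ r ∈ R₁, ¬ r ⊆ T), (if a ⊆ T then 0 else w T) := by
        rw [Finset.sum_filter, Finset.sum_filter]
        apply Finset.sum_congr rfl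
        intro T _
        by_cases h : a ⊆ T
        · have : ¬ ∀ r ∈ insert a R₁, ¬ r ⊆ T := fun hall => hall a (Finset.mem_insert_self _ _) h
          simp only [this, if_false, h, if_true]
          split_ifs <;> rfl
        · have hiff : (∀ r ∈ insert a R₁, ¬ r ⊆ T) ↔ (∀ r ∈ R₁, ¬ r ⊆ T) := by
            constructor
            · exact fun hall r hr => hall r (Finset.mem_insert_of_mem hr)
            · intro hall r hr
              rcases Finset.mem_insert.mp hr with rfl | hr'
              · exact h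
              · exact hall r hr'
          simp only [hiff, h, if_false]
      rw [hfilt, hv₁]
      linarith

lemma one_sub_min_le_exp {x : ℝ} : 1 - min 1 x ≤ Real.exp (-x) := by
  by_cases h : x ≤ 1
  · rw [min_eq_right h]
    exact Real.one_sub_le_exp_neg x
  · rw [min_eq_left (le_of_not_ge h)]
    simpa using (Real.exp_pos (-x)).le

/-- The rounding step. -/
lemma round_apply (𝒯 : Finset (Finset α)) (h : Finset α → ℝ) (hh : ∀ W, 0 ≤ h W) {p : ℝ}
    (hp : 0 ≤ p) (Λ : ℕ) (hcov : ∀ T ∈ 𝒯, 1 ≤ ∑ W ∈ T.powerset, h W) :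
    ∃ R : Finset (Finset α), cost R p + cost (𝒯.filter (fun T => ∀ r ∈ R, ¬ r ⊆ T)) p
      ≤ Λ * ∑ W, h W * p ^ W.card + (1 / 2) ^ Λ * cost 𝒯 p := by
  set π : Finset α → ℝ := fun r => min 1 ((Λ : ℝ) * h r) with hπ
  have hπ0 : ∀ r, 0 ≤ π r := fun r => le_min (by norm_num) (mul_nonneg (Nat.cast_nonneg _) (hh r))
  have hπ1 : ∀ r, π r ≤ 1 := fun r => min_le_left _ _
  obtain ⟨R, -, hR⟩ := round_aux 𝒯 (fun r => p ^ r.card) π hπ0 hπ1 (fun r => pow_nonneg hp _)
    Finset.univ (fun T => p ^ T.card) (fun T => pow_nonneg hp _)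
  refine ⟨R, ?_⟩
  unfold cost
  refine hR.trans ?_
  have h1 : ∑ r, π r * p ^ r.card ≤ Λ * ∑ W, h W * p ^ W.card := by
    rw [Finset.mul_sum]
    apply Finset.sum_le_sum
    intro r _
    calc π r * p ^ r.card ≤ ((Λ : ℝ) * h r) * p ^ r.card :=
          mul_le_mul_of_nonneg_right (min_le_right _ _) (pow_nonneg hp _)
      _ = _ := by ring
  have h2 : ∀ T ∈ 𝒯, ∏ r ∈ Finset.univ.filter (fun r : Finset α => r ⊆ T), (1 - π r)
      ≤ (1 / 2) ^ Λ := by
    intro T hT
    rw [powerset_eq_filter]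
    have h3 : ∏ r ∈ T.powerset, (1 - π r) ≤ ∏ r ∈ T.powerset, Real.exp (-((Λ : ℝ) * h r)) := by
      apply Finset.prod_le_prod
      · intro r _; linarith [hπ1 r]
      · intro r _; exact one_sub_min_le_exp
    refine h3.trans ?_
    rw [← Real.exp_sum, Finset.sum_neg_distrib, ← Finset.mul_sum]
    have h4 : Real.exp (-((Λ : ℝ) * ∑ r ∈ T.powerset, h r)) ≤ Real.exp (-(Λ : ℝ)) := by
      apply Real.exp_le_exp.mpr
      have := mul_le_mul_of_nonneg_left (hcov T hT) (Nat.cast_nonneg (α := ℝ) Λ)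
      linarith
    refine h4.trans ?_
    have h5 : Real.exp (-(Λ : ℝ)) = (Real.exp (-1)) ^ Λ := by
      rw [← Real.exp_nat_mul]
      congr 1
      ring
    rw [h5]
    apply pow_le_pow_left₀ (Real.exp_pos _).le
    rw [Real.exp_neg, one_div]
    apply inv_anti₀ (by norm_num)
    have := Real.add_one_le_exp (1 : ℝ)
    linarith
  have h6 : ∑ T ∈ 𝒯, p ^ T.card * ∏ r ∈ Finset.univ.filter (fun r : Finset α => r ⊆ T), (1 - π r)
      ≤ (1 / 2) ^ Λ * ∑ T ∈ 𝒯, p ^ T.card := by
    rw [Finset.mul_sum]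
    apply Finset.sum_le_sum
    intro T hT
    rw [mul_comm ((1 / 2 : ℝ) ^ Λ)]
    exact mul_le_mul_of_nonneg_left (h2 T hT) (pow_nonneg hp _)
  linarith

/-- Peeling off elements of small share. -/
lemma peel {g : Finset α → ℝ} {η : ℝ} (hη : 0 ≤ η) (V : Finset α) (hV : 1 ≤ sub g V) :
    ∃ T, T ⊆ V ∧ 1 - η * V.card ≤ sub g T ∧ ∀ x ∈ T, η ≤ sub g T - sub g (T.erase x) := by
  have aux : ∀ (n : ℕ) (T : Finset α), T.card = n → T ⊆ V →
      1 - η * ((V.card : ℝ) - T.card) ≤ sub g T →
      ∃ T', T' ⊆ V ∧ 1 - η * V.card ≤ sub g T' ∧ ∀ x ∈ T', η ≤ sub g T' - sub g (T'.erase x) := by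
    intro n
    induction n with
    | zero =>
      intro T hT hsub hval
      refine ⟨T, hsub, ?_, ?_⟩
      · rw [hT] at hval; simpa using hval
      · intro x hx
        rw [Finset.card_eq_zero] at hT
        rw [hT] at hx
        exact absurd hx (Finset.notMem_empty _)
    | succ n ih =>
      intro T hT hsub hval
      by_cases hall : ∀ x ∈ T, η ≤ sub g T - sub g (T.erase x)
      · refine ⟨T, hsub, ?_, hall⟩
        have : (0 : ℝ) ≤ η * (T.card : ℝ) := mul_nonneg hη (Nat.cast_nonneg _)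
        nlinarith
      · obtain ⟨x, hx, hlt⟩ : ∃ x ∈ T, sub g T - sub g (T.erase x) < η := by
          by_contra hno
          apply hall
          intro x hx
          by_contra hc
          exact hno ⟨x, hx, not_le.mp hc⟩
        apply ih (T.erase x) (by rw [Finset.card_erase_of_mem hx, hT]; rfl)
          ((Finset.erase_subset _ _).trans hsub)
        have hc : ((T.erase x).card : ℝ) = (T.card : ℝ) - 1 := by
          rw [Finset.card_erase_of_mem hx, Nat.cast_sub (Finset.card_pos.mpr ⟨x, hx⟩)]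
          simp
        rw [hc]
        nlinarith
  exact aux V.card V rfl (Finset.Subset.refl _) (by simpa using hV)

/-- Every element of a peeled set lies in a set of large weight. -/
lemma exists_large {g : Finset α → ℝ} {η w : ℝ} {l : ℕ} (hw : η = w * 2 ^ l)
    (hη : 0 < η) {T : Finset α} (hT : T.card ≤ l) {x : α} (hx : x ∈ T)
    (hshare : η ≤ sub g T - sub g (T.erase x)) : ∃ S, S ⊆ T ∧ x ∈ S ∧ w ≤ g S := by
  by_contra hno
  have hA : sub g T - sub g (T.erase x) = ∑ S ∈ T.powerset \ (T.erase x).powerset, g S := by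
    unfold sub
    rw [← Finset.sum_sdiff (Finset.powerset_mono.mpr (Finset.erase_subset x T))]
    ring
  have hmem : T ∈ T.powerset \ (T.erase x).powerset := by
    simp only [Finset.mem_sdiff, Finset.mem_powerset, Finset.Subset.refl, true_and]
    intro h
    exact (Finset.mem_erase.mp (h hx)).1 rfl
  have hlt : ∑ S ∈ T.powerset \ (T.erase x).powerset, g S
      < ∑ S ∈ T.powerset \ (T.erase x).powerset, w := by
    apply Finset.sum_lt_sum_of_nonempty ⟨T, hmem⟩
    intro S hS
    obtain ⟨h1, h2⟩ := Finset.mem_sdiff.mp hS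
    have hST : S ⊆ T := Finset.mem_powerset.mp h1
    have hxS : x ∈ S := by
      by_contra hxS
      apply h2
      rw [Finset.mem_powerset]
      intro y hy
      exact Finset.mem_erase.mpr ⟨fun e => hxS (e ▸ hy), hST hy⟩
    by_contra hc
    exact hno ⟨S, hST, hxS, not_lt.mp hc⟩
  have hw0 : 0 < w := by
    have h2 : (0 : ℝ) < 2 ^ l := by positivity
    rw [hw] at hη
    by_contra hc
    have h3 : w ≤ 0 := not_lt.mp hc
    have h4 : w * 2 ^ l ≤ 0 := mul_nonpos_of_nonpos_of_nonneg h3 h2.le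
    linarith
  have hcard : ((T.powerset \ (T.erase x).powerset).card : ℝ) ≤ 2 ^ l := by
    have h1 : (T.powerset \ (T.erase x).powerset).card ≤ T.powerset.card :=
      Finset.card_le_card Finset.sdiff_subset
    rw [Finset.card_powerset] at h1
    have h2 : 2 ^ T.card ≤ 2 ^ l := Nat.pow_le_pow_right (by norm_num) hT
    exact_mod_cast h1.trans h2
  rw [Finset.sum_const, nsmul_eq_mul] at hlt
  have : ((T.powerset \ (T.erase x).powerset).card : ℝ) * w ≤ 2 ^ l * w :=
    mul_le_mul_of_nonneg_right hcard hw0.le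
  rw [hA] at hshare
  nlinarith


/-- Counting the peeled sets by building them from sets of large weight. -/
lemma count_aux {g : Finset α → ℝ} (hg : ∀ S, 0 ≤ g S) {p : ℝ} (hp : 0 ≤ p) {w : ℝ} (hw : 0 < w)
    (l : ℕ) (𝓣 : Finset (Finset α)) (hcard : ∀ T ∈ 𝓣, T.card ≤ l)
    (hlarge : ∀ T ∈ 𝓣, ∀ x ∈ T, ∃ S, S ⊆ T ∧ x ∈ S ∧ w ≤ g S)
    (hE : ∀ T ∈ 𝓣, ∀ V, V ⊆ T →
      ∑ S ∈ Finset.univ.filter (fun S : Finset α => S ≠ ∅), g S * (2 * p) ^ (S \ V).card ≤ 2 ^ l) :
    ∀ (n : ℕ) (V : Finset α), l + 1 ≤ V.card + n →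
      ∑ T ∈ 𝓣.filter (fun T => V ⊆ T), p ^ (T \ V).card ≤ (1 + 2 ^ l / w) ^ n := by
  have hB1 : (1 : ℝ) ≤ 1 + 2 ^ l / w := by
    have : (0 : ℝ) ≤ 2 ^ l / w := by positivity
    linarith
  intro n
  induction n with
  | zero =>
    intro V hV
    have hempty : 𝓣.filter (fun T => V ⊆ T) = ∅ := by
      rw [Finset.filter_eq_empty_iff]
      intro T hT hVT
      have h1 := Finset.card_le_card hVT
      have h2 := hcard T hT
      omega
    rw [hempty]
    simp
  | succ n ih =>
    intro V hV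
    set B : ℝ := 1 + 2 ^ l / w with hB
    have hBn : (1 : ℝ) ≤ B ^ n := one_le_pow₀ hB1
    by_cases hex : ∃ T ∈ 𝓣, V ⊆ T
    swap
    · have hempty : 𝓣.filter (fun T => V ⊆ T) = ∅ := by
        rw [Finset.filter_eq_empty_iff]
        intro T hT hVT
        exact hex ⟨T, hT, hVT⟩
      rw [hempty]
      simp only [Finset.sum_empty]
      positivity
    obtain ⟨T₀, hT₀, hVT₀⟩ := hex
    have hE₀ := hE T₀ hT₀ V hVT₀
    set 𝒮 := Finset.univ.filter (fun S : Finset α => w ≤ g S ∧ ¬ S ⊆ V) with h𝒮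
    have hterm : ∀ T ∈ 𝓣.filter (fun T => V ⊆ T), p ^ (T \ V).card
        ≤ (if T = V then 1 else 0) + ∑ S ∈ 𝒮, if S ⊆ T then p ^ (T \ V).card else 0 := by
      intro T hT
      obtain ⟨hT𝓣, hVT⟩ := Finset.mem_filter.mp hT
      have hnn : ∀ S ∈ 𝒮, 0 ≤ (if S ⊆ T then p ^ (T \ V).card else 0) := by
        intro S _
        split_ifs
        · exact pow_nonneg hp _
        · exact le_rfl
      by_cases hTV : T = V
      · have h0 : p ^ (T \ V).card = 1 := by rw [hTV]; simp
        rw [if_pos hTV]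
        linarith [Finset.sum_nonneg hnn]
      · rw [if_neg hTV, zero_add]
        obtain ⟨x, hxT, hxV⟩ : ∃ x ∈ T, x ∉ V := by
          by_contra hno
          apply hTV
          apply Finset.Subset.antisymm _ hVT
          intro y hy
          by_contra hyV
          exact hno ⟨y, hy, hyV⟩
        obtain ⟨S, hST, hxS, hwS⟩ := hlarge T hT𝓣 x hxT
        have hSmem : S ∈ 𝒮 := by
          refine Finset.mem_filter.mpr ⟨Finset.mem_univ _, hwS, ?_⟩
          intro hSV
          exact hxV (hSV hxS)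
        have h1 := Finset.single_le_sum hnn hSmem
        rwa [if_pos hST] at h1
    have hinner : ∀ S ∈ 𝒮, ∑ T ∈ 𝓣.filter (fun T => V ⊆ T),
        (if S ⊆ T then p ^ (T \ V).card else 0) ≤ p ^ (S \ V).card * B ^ n := by
      intro S hS
      have hnS : ¬ S ⊆ V := (Finset.mem_filter.mp hS).2.2
      have hlt : V.card < (V ∪ S).card := by
        apply Finset.card_lt_card
        refine ⟨Finset.subset_union_left, ?_⟩
        intro hsub
        exact hnS (Finset.union_subset_right hsub)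
      have hih := ih (V ∪ S) (by omega)
      have heq : ∑ T ∈ 𝓣.filter (fun T => V ⊆ T), (if S ⊆ T then p ^ (T \ V).card else 0)
          = p ^ (S \ V).card * ∑ T ∈ 𝓣.filter (fun T => V ∪ S ⊆ T), p ^ (T \ (V ∪ S)).card := by
        rw [Finset.mul_sum, Finset.sum_filter, Finset.sum_filter]
        apply Finset.sum_congr rfl
        intro T _
        by_cases h1 : V ∪ S ⊆ T
        · have h2 : V ⊆ T := Finset.union_subset_left h1
          have h3 : S ⊆ T := Finset.union_subset_right h1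
          rw [if_pos h2, if_pos h3, if_pos h1, card_sdiff_split h1, pow_add]
        · rw [if_neg h1]
          by_cases h2 : V ⊆ T
          · rw [if_pos h2, if_neg]
            intro h3
            exact h1 (Finset.union_subset h2 h3)
          · rw [if_neg h2]
      rw [heq]
      exact mul_le_mul_of_nonneg_left hih (pow_nonneg hp _)
    have hsumS : ∑ S ∈ 𝒮, p ^ (S \ V).card ≤ 2 ^ l / w := by
      have h1 : ∀ S ∈ 𝒮, p ^ (S \ V).card ≤ (1 / w) * (g S * (2 * p) ^ (S \ V).card) := by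
        intro S hS
        have hwS : w ≤ g S := (Finset.mem_filter.mp hS).2.1
        have h2 : p ^ (S \ V).card ≤ (2 * p) ^ (S \ V).card :=
          pow_le_pow_left₀ hp (by linarith) _
        have h3 : 1 ≤ (1 / w) * g S := by
          rw [one_div, ← div_eq_inv_mul, le_div_iff₀ hw]
          linarith
        calc p ^ (S \ V).card ≤ (2 * p) ^ (S \ V).card := h2
          _ = 1 * (2 * p) ^ (S \ V).card := (one_mul _).symm
          _ ≤ ((1 / w) * g S) * (2 * p) ^ (S \ V).card :=
              mul_le_mul_of_nonneg_right h3 (by positivity)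
          _ = _ := by ring
      calc ∑ S ∈ 𝒮, p ^ (S \ V).card
          ≤ ∑ S ∈ 𝒮, (1 / w) * (g S * (2 * p) ^ (S \ V).card) := Finset.sum_le_sum h1
        _ = (1 / w) * ∑ S ∈ 𝒮, g S * (2 * p) ^ (S \ V).card := by rw [Finset.mul_sum]
        _ ≤ (1 / w) * ∑ S ∈ Finset.univ.filter (fun S : Finset α => S ≠ ∅),
              g S * (2 * p) ^ (S \ V).card := by
            apply mul_le_mul_of_nonneg_left _ (by positivity)
            apply Finset.sum_le_sum_of_subset_of_nonneg
            · intro S hS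
              refine Finset.mem_filter.mpr ⟨Finset.mem_univ _, ?_⟩
              intro h0
              apply (Finset.mem_filter.mp hS).2.2
              rw [h0]
              exact Finset.empty_subset _
            · intro S _ _
              exact mul_nonneg (hg S) (by positivity)
        _ ≤ (1 / w) * 2 ^ l := mul_le_mul_of_nonneg_left hE₀ (by positivity)
        _ = 2 ^ l / w := by ring
    calc ∑ T ∈ 𝓣.filter (fun T => V ⊆ T), p ^ (T \ V).card
        ≤ ∑ T ∈ 𝓣.filter (fun T => V ⊆ T),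
            ((if T = V then 1 else 0) + ∑ S ∈ 𝒮, if S ⊆ T then p ^ (T \ V).card else 0) :=
          Finset.sum_le_sum hterm
      _ = ∑ T ∈ 𝓣.filter (fun T => V ⊆ T), (if T = V then (1 : ℝ) else 0)
            + ∑ S ∈ 𝒮, ∑ T ∈ 𝓣.filter (fun T => V ⊆ T),
                (if S ⊆ T then p ^ (T \ V).card else 0) := by
          rw [Finset.sum_add_distrib, Finset.sum_comm]
      _ ≤ 1 + ∑ S ∈ 𝒮, p ^ (S \ V).card * B ^ n := by
          apply add_le_add
          · rw [Finset.sum_ite_eq']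
            split_ifs <;> norm_num
          · exact Finset.sum_le_sum hinner
      _ = 1 + (∑ S ∈ 𝒮, p ^ (S \ V).card) * B ^ n := by rw [Finset.sum_mul]
      _ ≤ B ^ n + (2 ^ l / w) * B ^ n := by
          apply add_le_add hBn
          exact mul_le_mul_of_nonneg_right hsumS (by positivity)
      _ = B ^ (n + 1) := by rw [pow_succ, hB]; ring

lemma cost_union_le (A B : Finset (Finset α)) {p : ℝ} (hp : 0 ≤ p) :
    cost (A ∪ B) p ≤ cost A p + cost B p := by
  unfold cost
  have h := Finset.sum_union_inter (s₁ := A) (s₂ := B) (f := fun U : Finset α => p ^ U.card)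
  have h2 : 0 ≤ ∑ U ∈ A ∩ B, p ^ U.card := Finset.sum_nonneg fun U _ => pow_nonneg hp _
  linarith

/-- One step of the recursion. -/
theorem good_step {l l₁ : ℕ} {L₁ : ℝ} (hL₁ : 1 ≤ L₁) (h : Good α l₁ L₁)
    (hΛ : 64 * ((3 * l + 3) * (l + 1) + 6) ≤ 2 ^ l₁) : Good α l (64 * L₁) := by
  classical
  intro g q hg hq hm
  have hL₀ : (0 : ℝ) < L₁ := by linarith
  set p : ℝ := q / (64 * L₁) with hpdef
  have hp : 0 ≤ p := by positivity
  have hp8 : q / 8 / L₁ = 8 * p := by
    rw [hpdef]; field_simp; norm_num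
  have hp64 : p ≤ q / 64 := by
    rw [hpdef, div_le_div_iff₀ (by positivity) (by norm_num)]
    nlinarith
  set a : ℝ := 2 * p with ha
  have ha0 : 0 ≤ a := by positivity
  have hempty : g ∅ ≤ 1 / 4 := (g_empty_le hg hq).trans hm
  have hdernn : ∀ R, 0 ≤ der g a R := der_nonneg hg ha0
  have hmass1 : mass (der g a) (q / 8) ≤ 1 / 4 :=
    (mass_der_le hg ha0 (by positivity) hq (by rw [ha]; linarith)).trans hm
  have hmass2 : mass (der g a) p ≤ 1 / 4 :=
    (mass_der_le hg ha0 hp hq (by rw [ha]; linarith)).trans hm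
  obtain ⟨G', hG'cost, hG'cov⟩ := h (der g a) (q / 8) hdernn (by positivity) hmass1
  rw [hp8] at hG'cost
  -- the cost of the recursive family at the lower level
  have hG'p : cost G' p ≤ 1 / 64 := by
    have hne : ∀ U ∈ G', U ≠ ∅ := by
      intro U hU h0
      have h1 := Finset.single_le_sum (f := fun U : Finset α => (8 * p) ^ U.card)
        (fun U _ => by positivity) hU
      have h2 : (8 * p) ^ U.card = 1 := by rw [h0]; simp
      unfold cost at hG'cost
      rw [h2] at h1
      linarith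
    have hterm : ∀ U ∈ G', p ^ U.card ≤ (1 / 8) * (8 * p) ^ U.card := by
      intro U hU
      have hcard : 1 ≤ U.card := Finset.card_pos.mpr (Finset.nonempty_iff_ne_empty.mpr (hne U hU))
      have h1 : (8 * p) ^ U.card = 8 ^ U.card * p ^ U.card := mul_pow _ _ _
      have h2 : (8 : ℝ) ≤ 8 ^ U.card := by
        calc (8 : ℝ) = 8 ^ 1 := by norm_num
          _ ≤ 8 ^ U.card := pow_le_pow_right₀ (by norm_num) hcard
      rw [h1]
      have h3 : 0 ≤ p ^ U.card := pow_nonneg hp _
      nlinarith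
    unfold cost at hG'cost ⊢
    calc ∑ U ∈ G', p ^ U.card ≤ ∑ U ∈ G', (1 / 8) * (8 * p) ^ U.card := Finset.sum_le_sum hterm
      _ = (1 / 8) * ∑ U ∈ G', (8 * p) ^ U.card := by rw [Finset.mul_sum]
      _ ≤ 1 / 64 := by linarith
  -- the family of sets of large derived weight
  set GD := Finset.univ.filter (fun R : Finset α => 4 ≤ der g a R) with hGD
  have hGDp : cost GD p ≤ 1 / 16 := by
    have hterm : ∀ R ∈ GD, p ^ R.card ≤ (1 / 4) * (der g a R * p ^ R.card) := by
      intro R hR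
      have h1 : 4 ≤ der g a R := (Finset.mem_filter.mp hR).2
      have h3 : 0 ≤ p ^ R.card := pow_nonneg hp _
      nlinarith
    unfold cost
    calc ∑ R ∈ GD, p ^ R.card ≤ ∑ R ∈ GD, (1 / 4) * (der g a R * p ^ R.card) :=
          Finset.sum_le_sum hterm
      _ = (1 / 4) * ∑ R ∈ GD, der g a R * p ^ R.card := by rw [Finset.mul_sum]
      _ ≤ (1 / 4) * ∑ R : Finset α, der g a R * p ^ R.card := by
          apply mul_le_mul_of_nonneg_left _ (by norm_num)
          exact Finset.sum_le_sum_of_subset_of_nonneg (Finset.filter_subset _ _)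
            (fun R _ _ => mul_nonneg (hdernn R) (pow_nonneg hp _))
      _ ≤ 1 / 16 := by
          have : ∑ R : Finset α, der g a R * p ^ R.card ≤ 1 / 4 := hmass2
          linarith
  -- the peeled light sets
  set η : ℝ := 1 / (4 * ((l : ℝ) + 1)) with hη
  have hη0 : 0 < η := by positivity
  set w : ℝ := η / 2 ^ l with hw
  have hw0 : 0 < w := by positivity
  have hηw : η = w * 2 ^ l := by rw [hw]; field_simp
  set 𝓣 : Finset (Finset α) := Finset.univ.filter (fun T : Finset α =>
    T.card ≤ l ∧ (∀ x ∈ T, η ≤ sub g T - sub g (T.erase x)) ∧ (∀ R, R ⊆ T → der g a R < 4) ∧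
      3 / 4 ≤ sub g T ∧ ∀ V', V' ⊆ T → V'.card ≤ l₁ → sub (der g a) V' < 1) with h𝓣
  have hmem𝓣 : ∀ T ∈ 𝓣, T.card ≤ l ∧ (∀ x ∈ T, η ≤ sub g T - sub g (T.erase x)) ∧
      (∀ R, R ⊆ T → der g a R < 4) ∧ 3 / 4 ≤ sub g T ∧
      ∀ V', V' ⊆ T → V'.card ≤ l₁ → sub (der g a) V' < 1 :=
    fun T hT => (Finset.mem_filter.mp hT).2
  -- the count of the peeled sets
  have hcount : cost 𝓣 p ≤ 2 ^ ((3 * l + 3) * (l + 1)) := by
    have hcnt := count_aux hg hp hw0 l 𝓣 (fun T hT => (hmem𝓣 T hT).1)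
      (fun T hT x hx => exists_large hηw hη0 (hmem𝓣 T hT).1 hx ((hmem𝓣 T hT).2.1 x hx))
      (by
        intro T hT V hVT
        have h1 := sub_der_ge hg ha0 V
        have h2 : sub (der g a) V ≤ ∑ R ∈ V.powerset, (4 : ℝ) := by
          apply Finset.sum_le_sum
          intro R hR
          exact ((hmem𝓣 T hT).2.2.1 R ((Finset.mem_powerset.mp hR).trans hVT)).le
        rw [Finset.sum_const, Finset.card_powerset, nsmul_eq_mul] at h2
        have h3 : ((2 ^ V.card : ℕ) : ℝ) ≤ 2 ^ l := by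
          have : 2 ^ V.card ≤ 2 ^ l := Nat.pow_le_pow_right (by norm_num)
            ((Finset.card_le_card hVT).trans (hmem𝓣 T hT).1)
          exact_mod_cast this
        have ha2 : 2 * p = a := rfl
        rw [ha2]
        linarith)
      (l + 1) ∅ (by simp)
    have hfilter : 𝓣.filter (fun T => ∅ ⊆ T) = 𝓣 :=
      Finset.filter_true_of_mem fun T _ => Finset.empty_subset _
    rw [hfilter] at hcnt
    simp only [Finset.sdiff_empty] at hcnt
    unfold cost
    refine hcnt.trans ?_
    rw [pow_mul]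
    apply pow_le_pow_left₀ (by positivity)
    have h1 : (2 : ℝ) ^ l / w = 2 ^ l * 2 ^ l * (4 * ((l : ℝ) + 1)) := by
      rw [hw, hη]; field_simp
    have h2 : ((l : ℝ) + 1) ≤ 2 ^ l := by
      have : l + 1 ≤ 2 ^ l := Nat.lt_two_pow_self
      exact_mod_cast this
    have h3 : (1 : ℝ) ≤ 2 ^ l := one_le_pow₀ (by norm_num)
    have h4 : (2 : ℝ) ^ (3 * l + 3) = 8 * (2 ^ l * 2 ^ l * 2 ^ l) := by
      rw [pow_add, pow_mul']; norm_num; ring
    rw [h1, h4]
    have h5 : (0 : ℝ) < 2 ^ l := by positivity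
    have h6 : (2 : ℝ) ^ l * 2 ^ l * (4 * ((l : ℝ) + 1)) ≤ 2 ^ l * 2 ^ l * (4 * 2 ^ l) := by
      apply mul_le_mul_of_nonneg_left _ (by positivity)
      linarith
    have h7 : (1 : ℝ) ≤ 2 ^ l * 2 ^ l * 2 ^ l := by
      have := mul_le_mul h3 h3 (by norm_num) h5.le
      have h8 := mul_le_mul this h3 (by norm_num) (by positivity)
      simpa using h8
    nlinarith
  -- rounding
  obtain ⟨hh, hhnn, hhcost, hhlow⟩ := tree_final hg hp l₁ hempty
  set Λ : ℕ := (3 * l + 3) * (l + 1) + 6 with hΛdef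
  obtain ⟨R, hRcost⟩ := round_apply 𝓣 hh hhnn hp Λ (fun T hT =>
    hhlow T (hmem𝓣 T hT).2.2.2.1 (hmem𝓣 T hT).2.2.2.2)
  set M := 𝓣.filter (fun T => ∀ r ∈ R, ¬ r ⊆ T) with hM
  have hround : cost R p + cost M p ≤ 1 / 32 := by
    have h1 : (Λ : ℝ) * ∑ W, hh W * p ^ W.card ≤ 1 / 64 := by
      have h2 : (Λ : ℝ) * ∑ W, hh W * p ^ W.card ≤ (Λ : ℝ) * (1 / 2) ^ l₁ :=
        mul_le_mul_of_nonneg_left hhcost (Nat.cast_nonneg _)
      have h3 : 64 * (Λ : ℝ) ≤ 2 ^ l₁ := by exact_mod_cast hΛ
      have h4 : (Λ : ℝ) * (1 / 2) ^ l₁ ≤ 1 / 64 := by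
        rw [one_div, inv_pow, ← div_eq_mul_inv, div_le_div_iff₀ (by positivity) (by norm_num)]
        linarith
      linarith
    have h5 : (1 / 2 : ℝ) ^ Λ * cost 𝓣 p ≤ 1 / 64 := by
      have h6 : (1 / 2 : ℝ) ^ Λ * cost 𝓣 p ≤ (1 / 2) ^ Λ * 2 ^ ((3 * l + 3) * (l + 1)) :=
        mul_le_mul_of_nonneg_left hcount (by positivity)
      have h7 : (1 / 2 : ℝ) ^ Λ * 2 ^ ((3 * l + 3) * (l + 1)) = 1 / 64 := by
        rw [hΛdef, pow_add]
        have h8 : (1 / 2 : ℝ) ^ ((3 * l + 3) * (l + 1)) * 2 ^ ((3 * l + 3) * (l + 1)) = 1 := by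
          rw [← mul_pow]; norm_num
        calc _ = ((1 / 2 : ℝ) ^ ((3 * l + 3) * (l + 1)) * 2 ^ ((3 * l + 3) * (l + 1)))
              * (1 / 2) ^ 6 := by ring
          _ = 1 / 64 := by rw [h8]; norm_num
      linarith
    linarith
  -- assembling the family
  refine ⟨G' ∪ GD ∪ R ∪ M, ?_, ?_⟩
  · have h1 := cost_union_le (G' ∪ GD ∪ R) M hp
    have h2 := cost_union_le (G' ∪ GD) R hp
    have h3 := cost_union_le G' GD hp
    linarith
  · intro V hV hsub
    have hηcard : η * (V.card : ℝ) ≤ 1 / 4 := by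
      have h1 : (V.card : ℝ) ≤ (l : ℝ) := by exact_mod_cast hV
      have h2 : η * (V.card : ℝ) ≤ η * (l : ℝ) := mul_le_mul_of_nonneg_left h1 hη0.le
      have h3 : η * (l : ℝ) ≤ 1 / 4 := by
        rw [hη, one_div, ← div_eq_inv_mul, div_le_iff₀ (by positivity)]
        linarith
      linarith
    obtain ⟨T, hTV, hT34, hTshare⟩ := peel hη0.le V hsub
    have hT34' : 3 / 4 ≤ sub g T := by linarith
    by_cases hD : ∃ R', R' ⊆ T ∧ 4 ≤ der g a R'
    · obtain ⟨R', hR'T, hR'⟩ := hD
      refine ⟨R', ?_, hR'T.trans hTV⟩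
      simp only [Finset.mem_union]
      exact Or.inl (Or.inl (Or.inr (Finset.mem_filter.mpr ⟨Finset.mem_univ _, hR'⟩)))
    by_cases hH : ∃ V', V' ⊆ T ∧ V'.card ≤ l₁ ∧ 1 ≤ sub (der g a) V'
    · obtain ⟨V', hV'T, hV'card, hV'⟩ := hH
      obtain ⟨U, hU, hUV'⟩ := hG'cov V' hV'card hV'
      refine ⟨U, ?_, hUV'.trans (hV'T.trans hTV)⟩
      simp only [Finset.mem_union]
      exact Or.inl (Or.inl (Or.inl hU))
    have hTmem : T ∈ 𝓣 := by
      refine Finset.mem_filter.mpr ⟨Finset.mem_univ _, ?_, hTshare, ?_, hT34', ?_⟩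
      · exact (Finset.card_le_card hTV).trans hV
      · intro R' hR'
        by_contra hc
        exact hD ⟨R', hR', not_lt.mp hc⟩
      · intro V' hV' hV'c
        by_contra hc
        exact hH ⟨V', hV', hV'c, not_lt.mp hc⟩
    by_cases hcov : ∃ r ∈ R, r ⊆ T
    · obtain ⟨r, hr, hrT⟩ := hcov
      refine ⟨r, ?_, hrT.trans hTV⟩
      simp only [Finset.mem_union]
      exact Or.inl (Or.inr hr)
    · refine ⟨T, ?_, hTV⟩
      simp only [Finset.mem_union]
      refine Or.inr (Finset.mem_filter.mpr ⟨hTmem, ?_⟩)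
      intro r hr hrT
      exact hcov ⟨r, hr, hrT⟩


lemma tower_ge (k : ℕ) : 4 ≤ (fun n : ℕ => 2 ^ n)^[k] 4 := by
  induction k with
  | zero => simp
  | succ k ih =>
    rw [Function.iterate_succ_apply']
    have h := Nat.lt_two_pow_self (n := (fun n : ℕ => 2 ^ n)^[k] 4)
    show 4 ≤ 2 ^ ((fun n : ℕ => 2 ^ n)^[k] 4)
    omega

lemma tower_step (τ : ℕ) (hτ : 4 ≤ τ) :
    64 * ((3 * (2 * 2 ^ τ + 15) + 3) * ((2 * 2 ^ τ + 15) + 1) + 6) ≤ 2 ^ (2 * τ + 15) := by
  have hx : 16 ≤ 2 ^ τ := by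
    calc 16 = 2 ^ 4 := by norm_num
      _ ≤ 2 ^ τ := Nat.pow_le_pow_right (by norm_num) hτ
  have h2 : 2 ^ (2 * τ + 15) = 32768 * (2 ^ τ * 2 ^ τ) := by
    rw [pow_add, two_mul, pow_add]; norm_num; ring
  rw [h2]
  generalize 2 ^ τ = x at hx
  nlinarith

/-- The iterated recursion. -/
theorem good_tower (k : ℕ) :
    Good α (2 * ((fun n : ℕ => 2 ^ n)^[k] 4) + 15) (2 ^ 25 * 64 ^ k) := by
  induction k with
  | zero =>
    apply good_base
    norm_num
  | succ k ih =>
    have hL : (1 : ℝ) ≤ 2 ^ 25 * 64 ^ k := by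
      have h1 : (1 : ℝ) ≤ 64 ^ k := one_le_pow₀ (by norm_num)
      nlinarith
    have hstep := good_step (l := 2 * ((fun n : ℕ => 2 ^ n)^[k + 1] 4) + 15) hL ih (by
      rw [Function.iterate_succ_apply']
      exact tower_step _ (tower_ge k))
    have heq : (64 : ℝ) * (2 ^ 25 * 64 ^ k) = 2 ^ 25 * 64 ^ (k + 1) := by
      rw [pow_succ]; ring
    rwa [heq] at hstep

/-- The final statement in the language of the thresholds. -/
theorem main_bound (k : ℕ) (F : Finset (Finset α))
    (hF : ∀ H ∈ F, ∃ H' ∈ F, H' ⊆ H ∧ H'.card ≤ (fun n : ℕ => 2 ^ n)^[k] 4)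
    (p : ℝ) (hp : 0 ≤ p) (g : Finset α → ℝ) (hg : ∀ S, 0 ≤ g S)
    (hcov : ∀ H ∈ F, 1 ≤ ∑ S ∈ H.powerset, g S)
    (hcost : ∑ S : Finset α, g S * p ^ S.card ≤ 1 / 2) :
    ∃ G : Finset (Finset α), (∀ H ∈ F, ∃ U ∈ G, U ⊆ H) ∧
      ∑ U ∈ G, (p / (2 ^ 28 * 64 ^ k)) ^ U.card ≤ 1 / 2 := by
  have hempty : g ∅ ≤ 1 / 2 := by
    have h := g_empty_le hg hp (g := g)
    exact h.trans hcost
  set g₁ : Finset α → ℝ := fun S => if S = ∅ then 0 else 2 * g S with hg₁
  have hg₁nn : ∀ S, 0 ≤ g₁ S := by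
    intro S
    rw [hg₁]
    dsimp only
    split_ifs
    · exact le_rfl
    · have := hg S
      linarith
  have hq : 0 ≤ p / 8 := by positivity
  have hmass : mass g₁ (p / 8) ≤ 1 / 4 := by
    have hterm : ∀ S : Finset α, g₁ S * (p / 8) ^ S.card ≤ (1 / 4) * (g S * p ^ S.card) := by
      intro S
      rw [hg₁]
      dsimp only
      split_ifs with h0
      · rw [zero_mul]
        exact mul_nonneg (by norm_num) (mul_nonneg (hg S) (pow_nonneg hp _))
      · have hcard : 1 ≤ S.card := Finset.card_pos.mpr (Finset.nonempty_iff_ne_empty.mpr h0)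
        have h1 : (p / 8) ^ S.card ≤ (1 / 8) * p ^ S.card := by
          rw [div_pow, div_eq_mul_inv, mul_comm (p ^ S.card), one_div]
          apply mul_le_mul_of_nonneg_right _ (pow_nonneg hp _)
          apply inv_anti₀ (by norm_num)
          calc (8 : ℝ) = 8 ^ 1 := by norm_num
            _ ≤ 8 ^ S.card := pow_le_pow_right₀ (by norm_num) hcard
        have h2 := mul_le_mul_of_nonneg_left h1 (mul_nonneg (by norm_num : (0 : ℝ) ≤ 2) (hg S))
        calc 2 * g S * (p / 8) ^ S.card ≤ 2 * g S * ((1 / 8) * p ^ S.card) := h2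
          _ = _ := by ring
    unfold mass
    calc ∑ S : Finset α, g₁ S * (p / 8) ^ S.card
        ≤ ∑ S : Finset α, (1 / 4) * (g S * p ^ S.card) := Finset.sum_le_sum fun S _ => hterm S
      _ = (1 / 4) * ∑ S : Finset α, g S * p ^ S.card := by rw [Finset.mul_sum]
      _ ≤ 1 / 4 := by linarith
  obtain ⟨G, hGcost, hGcov⟩ := good_tower (α := α) k g₁ (p / 8) hg₁nn hq hmass
  refine ⟨G, ?_, ?_⟩
  · intro H hH
    obtain ⟨H', hH'F, hH'H, hH'card⟩ := hF H hH
    have hsub : 1 ≤ sub g₁ H' := by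
      have h1 := hcov H' hH'F
      have h2 : sub g₁ H' = 2 * ∑ S ∈ H'.powerset.erase ∅, g S := by
        unfold sub
        rw [← Finset.add_sum_erase _ _ (Finset.empty_mem_powerset H'), Finset.mul_sum]
        have h3 : g₁ ∅ = 0 := by rw [hg₁]; simp
        rw [h3, zero_add]
        apply Finset.sum_congr rfl
        intro S hS
        rw [hg₁]
        dsimp only
        rw [if_neg (Finset.mem_erase.mp hS).1]
      have h4 : ∑ S ∈ H'.powerset, g S = g ∅ + ∑ S ∈ H'.powerset.erase ∅, g S := by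
        rw [Finset.add_sum_erase _ _ (Finset.empty_mem_powerset H')]
      rw [h2]
      linarith
    obtain ⟨U, hU, hUH'⟩ := hGcov H' (by omega) hsub
    exact ⟨U, hU, hUH'.trans hH'H⟩
  · have heq : p / 8 / (2 ^ 25 * 64 ^ k) = p / (2 ^ 28 * 64 ^ k) := by
      rw [div_div]
      congr 1
      ring
    rw [heq] at hGcost
    unfold cost at hGcost
    linarith

end Vale.Agent.P034
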